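import Vale.Agent.P159.T1.D.Stmts
import Mathlib.Analysis.SpecialFunctions.SmoothTransition

/-!
Definitions and rows for `StmtArm` (plan 115 (5) of P159).

`w = (x, y) = (log |z|, arg z + π)`; `d` is the opening angle of the cone, `v = V / Y`.
-/

open Filter Topology MeasureTheory

namespace Vale.Agent.P159.T1.H664

open Vale.Agent.P159.H353 Vale.Agent.P159.T1.D

/-! ### profiles -/

/-- the radial profile: `1` on `[8d, 1/4]`, `0` off `[4d, 1/2]` -/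
noncomputable def gp (d x : ℝ) : ℝ :=
  Real.smoothTransition ((x - 4 * d) / (4 * d)) * (1 - Real.smoothTransition (4 * x - 1))

/-- slope of the vertical profile -/
noncomputable def us (d y : ℝ) : ℝ :=
  1 / d * (Real.smoothTransition ((y - d ^ 2) / d ^ 2) *
    (1 - Real.smoothTransition ((y - d) / d ^ 2)))

/-- the vertical profile, about `min (y / d) 1` -/
noncomputable def up (d y : ℝ) : ℝ := ∫ t in (0 : ℝ)..y, us d t

/-- the profile of the outer charges, `GB' = gp` -/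
noncomputable def GB (d x : ℝ) : ℝ := ∫ t in (0 : ℝ)..x, gp d t

/-- the profile of the inner charges, `GA' x = gp (-x)` -/
noncomputable def GA (d x : ℝ) : ℝ := -GB d (-x)

/-- the radial stream function, `PP' r = gp r / r` -/
noncomputable def PP (d r : ℝ) : ℝ := ∫ t in (0 : ℝ)..r, gp d t / t

/-- distance from the centre in the `w` plane -/
noncomputable def rw (w : ℝ × ℝ) : ℝ := Real.sqrt (w.1 ^ 2 + w.2 ^ 2)

/-- stream function of the correction, `w` plane -/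
noncomputable def psW (v d : ℝ) (w : ℝ × ℝ) : ℝ := 2 * v / Real.pi * PP d (rw w)

/-- the test function, `w` plane -/
noncomputable def phW (v d : ℝ) (w : ℝ × ℝ) : ℝ := v * gp d (rw w) * up d w.2

/-- logarithmic coordinates of the slit plane -/
noncomputable def lw (z : ℝ × ℝ) : ℝ × ℝ :=
  (Real.log (Real.sqrt (z.1 ^ 2 + z.2 ^ 2)), Complex.arg ⟨z.1, z.2⟩ + Real.pi)

/-! ### the explicit integrands -/

/-- the coefficient -/
noncomputable def cW (v d y : ℝ) : ℝ := if y < d then v / d else -(v / (2 * Real.pi - d))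

/-- derivatives of the stream function -/
noncomputable def psx (v d : ℝ) (w : ℝ × ℝ) : ℝ :=
  2 * v / Real.pi * (gp d (rw w) * w.1 / (rw w) ^ 2)

noncomputable def psy (v d : ℝ) (w : ℝ × ℝ) : ℝ :=
  2 * v / Real.pi * (gp d (rw w) * w.2 / (rw w) ^ 2)

/-- derivatives of the test function -/
noncomputable def phx (v d : ℝ) (w : ℝ × ℝ) : ℝ :=
  v * (deriv (gp d) (rw w) * (w.1 / rw w) * up d w.2)

noncomputable def phy (v d : ℝ) (w : ℝ × ℝ) : ℝ :=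
  v * (deriv (gp d) (rw w) * (w.2 / rw w) * up d w.2 + gp d (rw w) * us d w.2)

/-- integrand of the numerator -/
noncomputable def H1 (v d : ℝ) (w : ℝ × ℝ) : ℝ :=
  2 * (cW v d w.2 * (gp d (-w.1) - gp d w.1)) * psx v d w + psx v d w ^ 2 + psy v d w ^ 2

/-- integrand of the denominator -/
noncomputable def H2 (v d : ℝ) (w : ℝ × ℝ) : ℝ :=
  (cW v d w.2 * (gp d (-w.1) + gp d w.1) - phy v d w) ^ 2 + phx v d w ^ 2

/-- the strip of the `w` plane -/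
def strp : Set (ℝ × ℝ) := {w | 0 < w.2 ∧ w.2 < 2 * Real.pi}

/-- ARM.2a: change of variables -/
def StmtPull : Prop :=
  ∀ H : ℝ × ℝ → ℝ, ∫ z : ℝ × ℝ, H (lw z) / (z.1 ^ 2 + z.2 ^ 2) = ∫ w in strp, H w

/-- ARM.2b: the numerator -/
def StmtJ1 : Prop :=
  ∃ C d0 : ℝ, 0 < d0 ∧ ∀ d, 0 < d → d < d0 →
    ∫ w in strp, H1 1 d w ≤ -(4 / Real.pi) * Real.log (1 / d) + C

/-- ARM.2c: the denominator -/
def StmtJ2 : Prop :=
  ∃ C d0 : ℝ, 0 < d0 ∧ ∀ d, 0 < d → d < d0 → ∫ w in strp, H2 1 d w ≤ C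

/-! ### the tilt (ARM.1) -/

/-- ARM.1: the charges of one cell -/
def StmtTilt : Prop :=
  ∀ (Y V : ℝ), 0 < Y → 0 < V → ∃ q0 : ℕ, ∀ q ≥ q0, ∃ n1 : ℕ, ∀ n0 ≥ n1, ∀ (r a : ℕ),
    3 * n0 ≤ a → (a : ℝ) ≤ 1 / 12 * r →
    (∀ f, 0 ≤ ro Y V q (fun τ => GA (ang q) (τ - Real.log a)) f ∧
      0 ≤ ro Y V q (fun τ => GB (ang q) (τ - Real.log a)) f ∧
      ro Y V q (fun τ => GA (ang q) (τ - Real.log a)) f +
        ro Y V q (fun τ => GB (ang q) (τ - Real.log a)) f ≤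
        ro Y V q (clp n0 ((r : ℝ) / 4)) f) ∧
    (∀ f, f ∉ strip q 1 a → ro Y V q (fun τ => GA (ang q) (τ - Real.log a)) f = 0) ∧
    (∀ f, f ∉ strip q (a + a / q) (2 * a) →
      ro Y V q (fun τ => GB (ang q) (τ - Real.log a)) f = 0)

/-- ARM.1: the divergence -/
def StmtTiltDiv : Prop :=
  ∀ (Y V : ℝ) (q : ℕ) (Γ : ℝ → ℝ) (U : Finset Z2), 1 ≤ q → (∀ f ∈ U, ¬ (f.2 = -1 ∧ f.1 < 0)) →
    IsDiv U (Bf Y V q Γ) (ro Y V q Γ)

/-! ### the test function (ARM.4) -/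

/-- cut-off away from the lip: `1` if `y / r ≥ .42`, `0` if `y / r ≤ .34` -/
noncomputable def thM (w : ℝ × ℝ) : ℝ := Real.smoothTransition ((w.2 / rw w - 34 / 100) * (100 / 8))

/-- the three pieces of the test function in the plane of `z = P / a` (zero above the lip) -/
noncomputable def phM (v d : ℝ) (z : ℝ × ℝ) : ℝ :=
  if z.2 < 0 then thM (lw z) * phW v d (lw z) else 0

noncomputable def phR (v d : ℝ) (z : ℝ × ℝ) : ℝ :=
  if z.2 < 0 ∧ (lw z).1 < 0 then (1 - thM (lw z)) * phW v d (lw z) else 0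

noncomputable def phL (v d : ℝ) (z : ℝ × ℝ) : ℝ :=
  if z.2 < 0 ∧ 0 < (lw z).1 then (1 - thM (lw z)) * phW v d (lw z) else 0

/-- the test function -/
noncomputable def ph (v d : ℝ) (z : ℝ × ℝ) : ℝ := if z.2 < 0 then phW v d (lw z) else 0

/-- the pieces seen from their corners -/
noncomputable def qR (v d : ℝ) (z : ℝ × ℝ) : ℝ := phR v d (-1 + z.1, -z.2)

noncomputable def qL (v d : ℝ) (q : ℕ) (z : ℝ × ℝ) : ℝ := phL v d (-1 - 1 / (q : ℝ) - z.1, -z.2)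

noncomputable def qM (v d : ℝ) (q : ℕ) (z : ℝ × ℝ) : ℝ :=
  phM v d (-2 + z.1, -(6 / (5 * (q : ℝ))) - z.2)

/-- ARM.4: the pieces are admissible for `StmtV` -/
def StmtPieces : Prop :=
  ∃ q0 : ℕ, 1 ≤ q0 ∧ ∀ q ≥ q0, ∀ v : ℝ, ∀ F : ℝ × ℝ → ℝ,
    (F = qR v (ang q) ∨ F = qL v (ang q) q ∨ F = qM v (ang q) q) →
    ContDiff ℝ 2 F ∧ HasCompactSupport F ∧ (∀ z ∈ tsupport F, 0 < z.1 ∧ 0 < z.2) ∧
      (∀ z ∈ tsupport F, z.1 ≤ 3 ∧ z.2 ≤ 3)

/-- ARM.4: derivatives below the lip -/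
def StmtPhDeriv : Prop :=
  ∀ v d : ℝ, 0 < d → d < 1 / 100 → ∀ z : ℝ × ℝ, z.2 < 0 →
    HasStrictFDerivAt (ph v d)
      (((phx v d (lw z) * z.1 - phy v d (lw z) * z.2) / (z.1 ^ 2 + z.2 ^ 2)) •
          ContinuousLinearMap.fst ℝ ℝ ℝ +
        ((phx v d (lw z) * z.2 + phy v d (lw z) * z.1) / (z.1 ^ 2 + z.2 ^ 2)) •
          ContinuousLinearMap.snd ℝ ℝ ℝ) z

/-- the pieces on the faces, column `a` (`a ≤ -i < a + a / q` is the cell) -/
noncomputable def fR (v d : ℝ) (a : ℕ) (f : Z2) : ℝ :=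
  if -(a : ℤ) + 1 ≤ f.1 ∧ f.2 ≤ -2 then
    qR v d (((f.1 + a - 1 : ℤ) : ℝ) / a, ((-2 - f.2 : ℤ) : ℝ) / a) else 0

noncomputable def fL (v d : ℝ) (q a : ℕ) (f : Z2) : ℝ :=
  if f.1 ≤ -((a + a / q : ℕ) : ℤ) ∧ f.2 ≤ -2 then
    qL v d q (((-f.1 - (a + a / q : ℕ) : ℤ) : ℝ) / a, ((-2 - f.2 : ℤ) : ℝ) / a) else 0

noncomputable def fM (v d : ℝ) (q a : ℕ) (f : Z2) : ℝ :=
  if -(2 * a : ℤ) ≤ f.1 ∧ f.2 ≤ -((6 * a / (5 * q) + 2 : ℕ) : ℤ) then
    qM v d q (((f.1 + 2 * a : ℤ) : ℝ) / a,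
      ((-((6 * a / (5 * q) + 2 : ℕ) : ℤ) - f.2 : ℤ) : ℝ) / a) else 0

/-- ARM.4: the boxes of `StmtV` fit into the slit box without the cell -/
def StmtBoxes : Prop :=
  ∀ q : ℕ, 6 ≤ q → ∀ R : ℕ, ∃ A0 a0 : ℕ, ∀ (A r a : ℕ), A0 ≤ A → a0 ≤ a → (a : ℝ) ≤ 1 / 12 * r →
    ∀ Q : Finset Z2, (∀ f, f ∈ Q ↔ f ∈ strip q a (a + a / q)) → ∀ f : Z2,
      0 ≤ f.1 → f.1 < a * R → 0 ≤ f.2 → f.2 < a * R →
      iso (-(a : ℤ) + 1, -1) true false false f ∈ SB (A * r) r \ Q ∧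
      iso (-((a + a / q : ℕ) : ℤ) + 1, -1) false false false f ∈ SB (A * r) r \ Q ∧
      iso (-(2 * a : ℤ), -((6 * a / (5 * q) + 1 : ℕ) : ℤ)) true false false f ∈ SB (A * r) r \ Q

/-! ### the interface between the numerator and the denominator -/

/-- the inner charges of the cell `a` -/
noncomputable def rA (Y V : ℝ) (q a : ℕ) (f : Z2) : ℝ :=
  ro Y V q (fun τ => GA (ang q) (τ - Real.log a)) f

/-- the outer charges of the cell `a` -/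
noncomputable def rB (Y V : ℝ) (q a : ℕ) (f : Z2) : ℝ :=
  ro Y V q (fun τ => GB (ang q) (τ - Real.log a)) f

/-- the energy of the interface -/
noncomputable def Sq (Y V : ℝ) (q : ℕ) : ℝ :=
  V ^ 2 / (2 * Y * ang q) * ∫ x : ℝ, gp (ang q) |x| ^ 2

/-- NUM: the numerator, uniform in the domain -/
def StmtNum : Prop :=
  ∀ (b V : ℝ), bCrit ≤ b → 0 < V → ∃ (C : ℝ) (q0 : ℕ), ∀ q ≥ q0, ∃ a0 : ℕ, ∀ a ≥ a0,
    ∀ U : Finset Z2, (∀ f ∈ U, ¬ (f.2 = -1 ∧ f.1 < 0)) →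
      Zρ b U (fun f => rA (helicity b) V q a f - rB (helicity b) V q a f) ≤
        Real.exp (Sq (helicity b) V q - 2 * V ^ 2 / (Real.pi * helicity b) * Real.log q + C) *
          Z b U

/-- DEN: the denominator -/
def StmtDen : Prop :=
  ∀ (b V : ℝ), bCrit ≤ b → 0 < V → ∃ (C : ℝ) (q0 : ℕ), ∀ q ≥ q0, ∃ a0 A0 : ℕ, ∀ a ≥ a0,
    ∀ A ≥ A0, ∀ r : ℕ, (a : ℝ) ≤ 1 / 12 * r → ∀ Q : Finset Z2,
      (∀ f, f ∈ Q ↔ f ∈ strip q a (a + a / q)) →
      Real.exp (Sq (helicity b) V q - C) * Z b (SB (A * r) r \ Q) ≤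
        Zρ b (SB (A * r) r \ Q)
          (fun f => rA (helicity b) V q a f + rB (helicity b) V q a f)

/-! ### the quadratic form (ARM.5) -/

/-- ARM.5a: the Gaussian lower bound -/
def StmtExp : Prop :=
  ∀ (b : ℝ), 0 < b → ∀ (U : Finset Z2) (B : Bnd → ℝ) (ρ : Z2 → ℝ), IsDiv U B ρ →
    Real.exp (Vr b U B / 2) * Z b U ≤ Zρ b U ρ

/-- ARM.5b: divergence form of the partition function -/
def StmtZB : Prop :=
  ∀ (b : ℝ), 0 < b → ∀ (U : Finset Z2) (B : Bnd → ℝ) (ρ : Z2 → ℝ), IsDiv U B ρ →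
    ZB b U 0 B = Zρ b U ρ

/-- ARM.5c: the variance is a quadratic form, which only depends on the bonds of `U` -/
def StmtQuad : Prop :=
  ∀ (b : ℝ), 0 < b → ∀ (U : Finset Z2), ∃ Cv : (Bnd → ℝ) → (Bnd → ℝ) → ℝ,
    (∀ (B G : Bnd → ℝ) (t : ℝ), Vr b U (fun e => B e + t * G e) =
      Vr b U B + 2 * t * Cv B G + t ^ 2 * Vr b U G) ∧ 0 < Z b U

end Vale.Agent.P159.T1.H664
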