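import Vale.Agent.P159.T1.H664.Num

/-!
`StmtArm` from the numerator, the denominator and the tilt.
-/

open Filter Topology MeasureTheory Set

namespace Vale.Agent.P159.T1.H664

open Vale.Agent.P159.H353 Vale.Agent.P159.T1.D

/-- the cell avoids the slit, hence also `SB \ Q` -/
lemma off_slit_sdiff {R r : ℕ} {Q : Finset Z2} : ∀ f ∈ SB R r \ Q, ¬ (f.2 = -1 ∧ f.1 < 0) := by
  intro f hf
  have h := (Finset.mem_sdiff.1 hf).1
  unfold SB at h
  rw [Finset.mem_filter] at h
  have := h.2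
  omega

/-- **StmtArm** from its rows -/
theorem arm_of (hN : StmtNum) (hD : StmtDen) (hT : StmtTilt) : StmtArm := by
  intro b V hb hV
  obtain ⟨hb0, hY'⟩ := H934.pos_of_ge b hb
  have hpi := Real.pi_gt_three
  have hY : 0 < helicity b := lt_of_lt_of_le (by positivity) hY'
  obtain ⟨C1, q1, h1⟩ := hN b V hb hV
  obtain ⟨C2, q2, h2⟩ := hD b V hb hV
  obtain ⟨q3, h3⟩ := hT (helicity b) V hY hV
  refine ⟨Real.exp (C1 + C2), max (max q1 q2) (max q3 1), fun q hq => ?_⟩
  have hq1 : q1 ≤ q := (le_max_left _ _).trans ((le_max_left _ _).trans hq)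
  have hq2 : q2 ≤ q := (le_max_right _ _).trans ((le_max_left _ _).trans hq)
  have hq3 : q3 ≤ q := (le_max_left _ _).trans ((le_max_right _ _).trans hq)
  have hq4 : 1 ≤ q := (le_max_right _ _).trans ((le_max_right _ _).trans hq)
  obtain ⟨a1, h1⟩ := h1 q hq1
  obtain ⟨a2, A0, h2⟩ := h2 q hq2
  obtain ⟨n1, h3⟩ := h3 q hq3
  refine ⟨max n1 (max a1 a2), A0, 1 / 12, by norm_num, le_rfl, fun n0 hn0 A r a hA ha har => ?_⟩
  have hn1 : n1 ≤ n0 := (le_max_left _ _).trans hn0
  have ha1 : a1 ≤ a := by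
    have := (le_max_left a1 a2).trans ((le_max_right n1 _).trans hn0)
    omega
  have ha2 : a2 ≤ a := by
    have := (le_max_right a1 a2).trans ((le_max_right n1 _).trans hn0)
    omega
  obtain ⟨h4, h5, h6⟩ := h3 n0 hn1 r a ha har
  refine ⟨rA (helicity b) V q a, rB (helicity b) V q a,
    fun f => ⟨(h4 f).1, (h4 f).2.1, (h4 f).2.2⟩, h5, h6, fun Q hQ => ?_⟩
  have h7 := h1 a ha1 (SB (A * r) r \ Q) off_slit_sdiff
  have h8 := h2 a ha2 A hA r har Q hQ
  refine h7.trans ?_
  have hq0 : (0 : ℝ) < q := by exact_mod_cast hq4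
  have e1 : (q : ℝ) ^ (-(2 * V ^ 2 / (Real.pi * helicity b))) =
      Real.exp (-(2 * V ^ 2 / (Real.pi * helicity b)) * Real.log q) := by
    rw [Real.rpow_def_of_pos hq0, mul_comm]
  have e2 : Real.exp (Sq (helicity b) V q - 2 * V ^ 2 / (Real.pi * helicity b) * Real.log q + C1) =
      Real.exp (C1 + C2) * Real.exp (-(2 * V ^ 2 / (Real.pi * helicity b)) * Real.log q) *
        Real.exp (Sq (helicity b) V q - C2) := by
    rw [← Real.exp_add, ← Real.exp_add]
    congr 1
    ring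
  rw [e1, e2, mul_assoc _ (Real.exp (Sq (helicity b) V q - C2))]
  exact mul_le_mul_of_nonneg_left h8 (by positivity)

end Vale.Agent.P159.T1.H664
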