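import Vale.Agent.P159.T1.H664.ArmDefs
import Vale.Agent.P159.T1.D.H226.Lat
import Vale.Agent.P159.T1.D.H469.Tri

/-!
Rows for the denominator of `StmtArm`.
-/

open Filter Topology MeasureTheory

namespace Vale.Agent.P159.T1.H664

open Vale.Agent.P159.H353 Vale.Agent.P159.T1.D Vale.Agent.P159.T1.D.H469

/-- the field of all charges of the cell `a` -/
noncomputable def Bp (Y V : ℝ) (q a : ℕ) (e : Bnd) : ℝ :=
  Bf Y V q (fun τ => GA (ang q) (τ - Real.log a)) e +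
    Bf Y V q (fun τ => GB (ang q) (τ - Real.log a)) e

/-- the three pieces of the test function, on the faces -/
noncomputable def fP (v d : ℝ) (q a : ℕ) (i : Fin 3) : Z2 → ℝ :=
  if i = 0 then fR v d a else if i = 1 then fL v d q a else fM v d q a

/-- the three pieces seen from their corners -/
noncomputable def zP (v d : ℝ) (q : ℕ) (i : Fin 3) : ℝ × ℝ → ℝ :=
  if i = 0 then qR v d else if i = 1 then qL v d q else qM v d q

/-- DEN-A: limits of the fields and the two integrals -/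
def StmtDenA : Prop :=
  ∃ q0 : ℕ, 1 ≤ q0 ∧ ∀ q ≥ q0, ∀ (Y V : ℝ), 0 < Y → 0 < V →
    ∃ (L : Bool → ℝ × ℝ → ℝ) (P : Fin 3 → Bool → ℝ × ℝ → ℝ),
      NF atTop (fun a : ℕ => (a : ℝ)) (fun a => Bp Y V q a) L ∧
      (∀ i, NF atTop (fun a : ℕ => (a : ℝ)) (fun a => dr (fP (V / Y) (ang q) q a i)) (P i)) ∧
      (∀ i, ∫ z, P i true z ^ 2 + P i false z ^ 2 = Dir (zP (V / Y) (ang q) q i)) ∧
      ∫ z, L true z ^ 2 + L false z ^ 2 =
        (V / Y) ^ 2 * (1 / ang q + 1 / (2 * Real.pi - ang q)) * ∫ x : ℝ, gp (ang q) |x| ^ 2 ∧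
      ∫ z, (L true z - ∑ i, P i true z) ^ 2 + (L false z - ∑ i, P i false z) ^ 2 =
        ∫ w in strp, H2 (V / Y) (ang q) w

/-- DEN-B: the defects of the three pieces -/
def StmtDenB : Prop :=
  ∀ b : ℝ, bCrit ≤ b → ∃ q0 : ℕ, 1 ≤ q0 ∧ ∀ q ≥ q0, ∀ (v δ : ℝ), 0 < δ →
    ∃ ε1 : ℝ, 0 < ε1 ∧ ∀ ε, 0 < ε → ε ≤ ε1 → ∀ (l : ℕ) (C : ℝ), 0 ≤ C → ∃ a0 A0 : ℕ,
      ∀ a ≥ a0, ∀ A ≥ A0, ∀ r : ℕ, (a : ℝ) ≤ 1 / 12 * r → ∀ Q : Finset Z2,
        (∀ f, f ∈ Q ↔ f ∈ strip q a (a + a / q)) → ∀ (S : Finset Bnd) (i : Fin 3),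
          Df b (helicity b + ε) C l (SB (A * r) r \ Q) S (dr (fP v (ang q) q a i)) ≤ δ

end Vale.Agent.P159.T1.H664
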