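import Vale.Agent.P159.T1.H664.Arm
import Vale.Agent.P159.T1.D.H459.Den
import Vale.Agent.P159.T1.D.H130.UFin
import Vale.Agent.P159.T1.D.H469.UV
import Vale.Agent.P159.T1.H532.StmtVF

/-!
**StmtArm** is a theorem.
-/

namespace Vale.Agent.P159.T1.H664

open Vale.Agent.P159.T1.D

/-- the ratio for one cell -/
theorem stmtArm : StmtArm :=
  arm_of (stmtNum stmtU) (H459.stmtDen H532.stmtV (H469.uv_of_u stmtU)) H407.stmtTilt

end Vale.Agent.P159.T1.H664
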