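import Mathlib

/-!
Lattice sums as integrals of step functions; convergence of lattice sums by dominated convergence.
-/

open MeasureTheory Filter Topology Set

namespace Vale.Agent.P159.T1.H664

/-- the cell of the point `z` on the scale `t` -/
noncomputable def cel (t : ℝ) (z : ℝ × ℝ) : ℤ × ℤ := (⌊t * z.1⌋, ⌊t * z.2⌋)

lemma measurable_cel (t : ℝ) : Measurable (cel t) := by
  unfold cel
  exact ((measurable_const.mul measurable_fst).floor).prodMk
    ((measurable_const.mul measurable_snd).floor)

lemma cel_preimage {t : ℝ} (ht : 0 < t) (P : ℤ × ℤ) :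
    cel t ⁻¹' {P} = Ico ((P.1 : ℝ) / t) ((P.1 + 1) / t) ×ˢ Ico ((P.2 : ℝ) / t) ((P.2 + 1) / t) := by
  ext z
  simp only [cel, mem_preimage, mem_singleton_iff, mem_prod, mem_Ico, Prod.ext_iff,
    Int.floor_eq_iff, div_le_iff₀ ht, lt_div_iff₀ ht, mul_comm t]

lemma volume_cel {t : ℝ} (ht : 0 < t) (P : ℤ × ℤ) :
    (volume.map (cel t)).real {P} = (t ^ 2)⁻¹ := by
  rw [measureReal_def, Measure.map_apply (measurable_cel t) (measurableSet_singleton P),
    cel_preimage ht, Measure.volume_eq_prod, Measure.prod_prod, Real.volume_Ico, Real.volume_Ico,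
    ENNReal.toReal_mul, ENNReal.toReal_ofReal, ENNReal.toReal_ofReal]
  · field_simp
    ring
  · rw [← sub_div]
    exact div_nonneg (by linarith) ht.le
  · rw [← sub_div]
    exact div_nonneg (by linarith) ht.le

lemma tsum_eq_integral {t : ℝ} (ht : 0 < t) {F : ℤ × ℤ → ℝ} (hF : (Function.support F).Finite) :
    ∑' P, F P = ∫ z, t ^ 2 * F (cel t z) := by
  have h1 : Integrable F (volume.map (cel t)) := by
    have e : F = fun P => ∑ Q ∈ hF.toFinset, ({Q} : Set (ℤ × ℤ)).indicator (fun _ => F Q) P := by
      funext P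
      rw [Finset.sum_eq_single P]
      · simp
      · intro Q _ hQ
        simp [Ne.symm hQ]
      · intro hP
        have : F P = 0 := by
          by_contra h
          exact hP (hF.mem_toFinset.2 h)
        simp [this]
    rw [e]
    refine integrable_finsetSum _ fun Q _ => ?_
    refine (integrable_indicator_iff (measurableSet_singleton Q)).2 ?_
    refine integrableOn_const ?_
    have := volume_cel ht Q
    intro h
    rw [measureReal_def, h] at this
    have h0 : (0 : ℝ) < (t ^ 2)⁻¹ := by positivity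
    simp only [ENNReal.toReal_top] at this
    linarith
  rw [integral_const_mul, ← integral_map (measurable_cel t).aemeasurable
    (measurable_of_countable F).aestronglyMeasurable, integral_countable' h1]
  rw [← tsum_mul_left]
  refine tsum_congr fun P => ?_
  rw [volume_cel ht, smul_eq_mul, ← mul_assoc, mul_inv_cancel₀ (by positivity), one_mul]

/-- lattice sums converge by dominated convergence -/
theorem tendsto_tsum_dct {F : ℝ → ℤ × ℤ → ℝ} {R M : ℝ} {h : ℝ × ℝ → ℝ}
    (hM : ∀ᶠ t : ℝ in atTop, ∀ P, |F t P| ≤ M / t ^ 2)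
    (hR : ∀ᶠ t : ℝ in atTop, ∀ P : ℤ × ℤ, F t P ≠ 0 → |(P.1 : ℝ)| ≤ R * t ∧ |(P.2 : ℝ)| ≤ R * t)
    (hlim : ∀ᵐ z : ℝ × ℝ, Tendsto (fun t : ℝ => t ^ 2 * F t (cel t z)) atTop (𝓝 (h z))) :
    Tendsto (fun t : ℝ => ∑' P, F t P) atTop (𝓝 (∫ z, h z)) := by
  have hev : ∀ᶠ t : ℝ in atTop, ∑' P, F t P = ∫ z, t ^ 2 * F t (cel t z) := by
    filter_upwards [hR, eventually_gt_atTop 0] with t hRt ht
    refine tsum_eq_integral ht ?_
    have hsub : Function.support (F t) ⊆
        (Set.Icc (-⌈R * t⌉) ⌈R * t⌉) ×ˢ (Set.Icc (-⌈R * t⌉) ⌈R * t⌉) := by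
      intro P hP
      obtain ⟨h1, h2⟩ := hRt P hP
      rw [abs_le] at h1 h2
      have hc := Int.le_ceil (R * t)
      refine ⟨⟨?_, ?_⟩, ⟨?_, ?_⟩⟩
      · have : ((-⌈R * t⌉ : ℤ) : ℝ) ≤ P.1 := by push_cast; linarith
        exact_mod_cast this
      · have : (P.1 : ℝ) ≤ (⌈R * t⌉ : ℤ) := by linarith
        exact_mod_cast this
      · have : ((-⌈R * t⌉ : ℤ) : ℝ) ≤ P.2 := by push_cast; linarith
        exact_mod_cast this
      · have : (P.2 : ℝ) ≤ (⌈R * t⌉ : ℤ) := by linarith
        exact_mod_cast this
    exact ((Set.finite_Icc _ _).prod (Set.finite_Icc _ _)).subset hsub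
  refine Tendsto.congr' (hev.mono fun t ht => ht.symm) ?_
  -- the dominating function
  refine tendsto_integral_filter_of_dominated_convergence
    ((Set.Icc (-(|R| + 1)) (|R| + 1) ×ˢ Set.Icc (-(|R| + 1)) (|R| + 1)).indicator fun _ => |M|)
    ?_ ?_ ?_ hlim
  · filter_upwards with t
    refine (Measurable.const_mul ?_ _).aestronglyMeasurable
    exact (measurable_of_countable (F t)).comp (measurable_cel t)
  · filter_upwards [hM, hR, eventually_gt_atTop 0, eventually_ge_atTop 1] with t h1 h2 ht ht1
    refine Eventually.of_forall fun z => ?_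
    rw [Real.norm_eq_abs, abs_mul, abs_of_pos (by positivity : (0:ℝ) < t ^ 2)]
    by_cases hz : F t (cel t z) = 0
    · rw [hz, abs_zero, mul_zero]
      exact Set.indicator_nonneg (fun _ _ => abs_nonneg _) _
    · obtain ⟨h3, h4⟩ := h2 _ hz
      rw [Set.indicator_of_mem]
      · calc t ^ 2 * |F t (cel t z)| ≤ t ^ 2 * (M / t ^ 2) :=
              mul_le_mul_of_nonneg_left (h1 _) (by positivity)
          _ = M := by field_simp
          _ ≤ |M| := le_abs_self M
      · have key : ∀ x : ℝ, |((⌊t * x⌋ : ℤ) : ℝ)| ≤ R * t → x ∈ Set.Icc (-(|R| + 1)) (|R| + 1) := by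
          intro x hx
          rw [abs_le] at hx
          have f1 := Int.floor_le (t * x)
          have f2 := Int.lt_floor_add_one (t * x)
          have hRt : R * t ≤ |R| * t := mul_le_mul_of_nonneg_right (le_abs_self R) ht.le
          constructor
          · by_contra hcon
            push Not at hcon
            have : t * x < t * (-(|R| + 1)) := mul_lt_mul_of_pos_left hcon ht
            nlinarith
          · by_contra hcon
            push Not at hcon
            have : t * (|R| + 1) < t * x := mul_lt_mul_of_pos_left hcon ht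
            nlinarith
        exact ⟨key _ h3, key _ h4⟩
  · refine (integrable_indicator_iff (measurableSet_Icc.prod measurableSet_Icc)).2 ?_
    refine integrableOn_const ?_
    rw [Measure.volume_eq_prod, Measure.prod_prod, Real.volume_Icc]
    exact ENNReal.mul_ne_top ENNReal.ofReal_ne_top ENNReal.ofReal_ne_top

end Vale.Agent.P159.T1.H664
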