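import Vale.Agent.P159.T1.H664.Psi
import Vale.Agent.P159.T1.D.H226.Lat
import Vale.Agent.P159.T1.D.H407.Tilt

/-!
The tilt field `Bf Y V q Γ` with `Γ = Γ₀ (· - log a)`, `Γ₀'` carried by `[-1/2, 1/2]`, is a nice
family when `a → ∞`.
-/

open Filter Topology MeasureTheory Set

namespace Vale.Agent.P159.T1.H664

open Vale.Agent.P159.H353 Vale.Agent.P159.T1.D
open Vale.Agent.P159.T1.H407 (fl riemann diff_quot fl_tendsto)

/-! ### functions of one variable -/

section one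

variable {Γ γ : ℝ → ℝ} {A : ℝ}

lemma sub_slope (hΓ : ∀ t, HasDerivAt Γ (γ t) t) {s t : ℝ} (h : s < t) :
    ∃ c, s < c ∧ c < t ∧ Γ t - Γ s = γ c * (t - s) := by
  obtain ⟨c, hc, e⟩ := exists_hasDerivAt_eq_slope Γ γ h
    (fun x _ => (hΓ x).continuousAt.continuousWithinAt) (fun x _ => hΓ x)
  refine ⟨c, hc.1, hc.2, ?_⟩
  rw [e]
  have : t - s ≠ 0 := by linarith
  field_simp

lemma lip_one (hΓ : ∀ t, HasDerivAt Γ (γ t) t) (hA : ∀ t, |γ t| ≤ A) (s t : ℝ) :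
    |Γ t - Γ s| ≤ A * |t - s| := by
  rcases lt_trichotomy s t with h | h | h
  · obtain ⟨c, -, -, e⟩ := sub_slope hΓ h
    rw [e, abs_mul]
    exact mul_le_mul_of_nonneg_right (hA c) (abs_nonneg _)
  · rw [h]; simp
  · obtain ⟨c, -, -, e⟩ := sub_slope hΓ h
    rw [abs_sub_comm, e, abs_mul, abs_sub_comm t s]
    exact mul_le_mul_of_nonneg_right (hA c) (abs_nonneg _)

lemma const_left (hΓ : ∀ t, HasDerivAt Γ (γ t) t) (hs : ∀ t, 1 / 2 ≤ |t| → γ t = 0) {s t : ℝ}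
    (h1 : s ≤ -(1 / 2)) (h2 : t ≤ -(1 / 2)) : Γ s = Γ t := by
  rcases lt_trichotomy s t with h | h | h
  · obtain ⟨c, h3, h4, e⟩ := sub_slope hΓ h
    rw [hs c (by rw [abs_of_neg (by linarith)]; linarith), zero_mul] at e
    linarith
  · rw [h]
  · obtain ⟨c, h3, h4, e⟩ := sub_slope hΓ h
    rw [hs c (by rw [abs_of_neg (by linarith)]; linarith), zero_mul] at e
    linarith

lemma const_right (hΓ : ∀ t, HasDerivAt Γ (γ t) t) (hs : ∀ t, 1 / 2 ≤ |t| → γ t = 0) {s t : ℝ}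
    (h1 : 1 / 2 ≤ s) (h2 : 1 / 2 ≤ t) : Γ s = Γ t := by
  rcases lt_trichotomy s t with h | h | h
  · obtain ⟨c, h3, h4, e⟩ := sub_slope hΓ h
    rw [hs c (by rw [abs_of_pos (by linarith)]; linarith), zero_mul] at e
    linarith
  · rw [h]
  · obtain ⟨c, h3, h4, e⟩ := sub_slope hΓ h
    rw [hs c (by rw [abs_of_pos (by linarith)]; linarith), zero_mul] at e
    linarith

end one

/-! ### null sets -/

lemma ae_ne_zero (p r : ℝ) (h : p ≠ 0 ∨ r ≠ 0) : ∀ᵐ z : ℝ × ℝ, p * z.1 + r * z.2 ≠ 0 := by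
  set L : ℝ × ℝ →ₗ[ℝ] ℝ := p • LinearMap.fst ℝ ℝ ℝ + r • LinearMap.snd ℝ ℝ ℝ with hL
  have h1 : LinearMap.ker L ≠ ⊤ := by
    intro h2
    have h3 : ∀ z : ℝ × ℝ, L z = 0 := fun z => by
      have : z ∈ LinearMap.ker L := by rw [h2]; trivial
      exact LinearMap.mem_ker.1 this
    have h4 := h3 (1, 0)
    have h5 := h3 (0, 1)
    simp [hL] at h4 h5
    rcases h with h | h
    · exact h h4
    · exact h h5
  have h2 := Measure.addHaar_submodule (volume : Measure (ℝ × ℝ)) (LinearMap.ker L) h1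
  rw [ae_iff]
  refine measure_mono_null ?_ h2
  intro z hz
  simp only [ne_eq, not_not] at hz
  rw [SetLike.mem_coe, LinearMap.mem_ker]
  simpa [hL] using hz

lemma ae_snd_ne : ∀ᵐ z : ℝ × ℝ, z.2 ≠ 0 := by
  filter_upwards [ae_ne_zero 0 1 (Or.inr one_ne_zero)] with z hz
  simpa using hz

/-! ### distances -/

/-- distance of a site from the tip -/
noncomputable def nr (P : Z2) : ℝ := Real.sqrt ((P.1 : ℝ) ^ 2 + (P.2 : ℝ) ^ 2)

lemma nr_nonneg (P : Z2) : 0 ≤ nr P := Real.sqrt_nonneg _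

lemma nr_eq (P : Z2) : nr P = ‖(⟨(P.1 : ℝ), (P.2 : ℝ)⟩ : ℂ)‖ := by
  unfold nr
  rw [Complex.norm_def, Complex.normSq_mk]
  simp only [sq]

lemma abs_fst_le_nr (P : Z2) : |(P.1 : ℝ)| ≤ nr P := by
  unfold nr
  exact Real.abs_le_sqrt (by nlinarith [sq_nonneg (P.2 : ℝ)])

lemma abs_snd_le_nr (P : Z2) : |(P.2 : ℝ)| ≤ nr P := by
  unfold nr
  exact Real.abs_le_sqrt (by nlinarith [sq_nonneg (P.1 : ℝ)])

lemma nr_bond (e : Bnd) : |nr (bt e) - nr (bs e)| ≤ 1 := by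
  rw [nr_eq, nr_eq]
  refine (abs_norm_sub_norm_le _ _).trans ?_
  rcases e with ⟨P, d⟩
  cases d
  · have : (⟨((bt (P, false)).1 : ℝ), ((bt (P, false)).2 : ℝ)⟩ : ℂ) -
        ⟨((bs (P, false)).1 : ℝ), ((bs (P, false)).2 : ℝ)⟩ = 1 := by
      apply Complex.ext <;> simp [bt, bs]
    rw [this, norm_one]
  · have : (⟨((bt (P, true)).1 : ℝ), ((bt (P, true)).2 : ℝ)⟩ : ℂ) -
        ⟨((bs (P, true)).1 : ℝ), ((bs (P, true)).2 : ℝ)⟩ = Complex.I := by
      apply Complex.ext <;> simp [bt, bs]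
    rw [this, Complex.norm_I]

lemma tau_eq (P : Z2) : tau P = Real.log (nr P) := rfl

lemma exp_half_lt : Real.exp (1 / 2) < 2 := by
  have h1 : Real.exp (1 / 2) ^ 2 = Real.exp 1 := by
    rw [← Real.exp_nat_mul]
    norm_num
  have h2 := Real.exp_one_lt_d9
  nlinarith [Real.exp_pos (1 / 2)]

lemma log_two_gt_half : 1 / 2 < Real.log 2 := by
  have := Real.log_two_gt_d9
  linarith

/-- `tau P - log a ≤ -1/2` if `|P| ≤ a / 2` -/
lemma tau_sub_le {P : Z2} {a : ℝ} (ha : 2 ≤ a) (h : nr P ≤ a / 2) :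
    tau P - Real.log a ≤ -(1 / 2) := by
  rw [tau_eq]
  rcases (nr_nonneg P).eq_or_lt with h0 | h0
  · rw [← h0, Real.log_zero]
    have := Real.log_le_log (by norm_num) ha
    linarith [log_two_gt_half]
  · have h1 := Real.log_le_log h0 h
    rw [Real.log_div (by linarith) (by norm_num)] at h1
    linarith [log_two_gt_half]

/-- `1/2 ≤ tau P - log a` if `2 a ≤ |P|` -/
lemma le_tau_sub {P : Z2} {a : ℝ} (ha : 0 < a) (h : 2 * a ≤ nr P) :
    1 / 2 ≤ tau P - Real.log a := by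
  rw [tau_eq]
  have h1 := Real.log_le_log (by linarith) h
  rw [Real.log_mul (by norm_num) ha.ne'] at h1
  linarith [log_two_gt_half]

/-! ### the gradient of `Γ (tau - log a)` -/

section grad

variable {Γ γ : ℝ → ℝ} {A : ℝ}

lemma gs_bound (hΓ : ∀ t, HasDerivAt Γ (γ t) t) (hA : ∀ t, |γ t| ≤ A)
    (hs : ∀ t, 1 / 2 ≤ |t| → γ t = 0) {a : ℝ} (ha : 4 ≤ a) (e : Bnd) :
    |gs (fun P => Γ (tau P - Real.log a)) e| ≤ 4 * A / a := by
  have hA0 : 0 ≤ A := (abs_nonneg _).trans (hA 0)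
  have h1 := abs_le.1 (nr_bond e)
  simp only [gs]
  by_cases h : a / 4 ≤ nr (bs e) ∧ a / 4 ≤ nr (bt e)
  · have h2 := lip_one hΓ hA (tau (bs e) - Real.log a) (tau (bt e) - Real.log a)
    refine h2.trans ?_
    have h3 : tau (bt e) - Real.log a - (tau (bs e) - Real.log a) = tau (bt e) - tau (bs e) := by
      ring
    have h4 : |Real.log (nr (bt e)) - Real.log (nr (bs e))| ≤ 1 / (a / 4) := by
      rcases le_total (nr (bs e)) (nr (bt e)) with h5 | h5
      · have h6 : 0 < nr (bs e) := by linarith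
        rw [abs_of_nonneg (sub_nonneg.2 (Real.log_le_log h6 h5)),
          ← Real.log_div (by linarith) h6.ne']
        have h7 := Real.log_le_sub_one_of_pos (div_pos (h6.trans_le h5) h6)
        refine h7.trans ?_
        rw [div_sub_one h6.ne']
        exact div_le_div₀ zero_le_one h1.2 (by linarith) h.1
      · have h6 : 0 < nr (bt e) := by linarith
        rw [abs_sub_comm, abs_of_nonneg (sub_nonneg.2 (Real.log_le_log h6 h5)),
          ← Real.log_div (by linarith) h6.ne']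
        have h7 := Real.log_le_sub_one_of_pos (div_pos (h6.trans_le h5) h6)
        refine h7.trans ?_
        rw [div_sub_one h6.ne']
        exact div_le_div₀ zero_le_one (by linarith) (by linarith) h.2
    rw [h3, tau_eq, tau_eq]
    calc A * |Real.log (nr (bt e)) - Real.log (nr (bs e))| ≤ A * (1 / (a / 4)) :=
          mul_le_mul_of_nonneg_left h4 hA0
      _ = 4 * A / a := by field_simp
  · have h2 : nr (bs e) ≤ a / 2 ∧ nr (bt e) ≤ a / 2 := by
      rw [not_and_or, not_le, not_le] at h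
      rcases h with h | h <;> constructor <;> linarith
    rw [const_left hΓ hs (tau_sub_le (by linarith) h2.2) (tau_sub_le (by linarith) h2.1), sub_self,
      abs_zero]
    positivity

lemma gs_supp (hΓ : ∀ t, HasDerivAt Γ (γ t) t)
    (hs : ∀ t, 1 / 2 ≤ |t| → γ t = 0) {a : ℝ} (ha : 4 ≤ a) (e : Bnd)
    (he : gs (fun P => Γ (tau P - Real.log a)) e ≠ 0) :
    |(e.1.1 : ℝ)| ≤ 3 * a ∧ |(e.1.2 : ℝ)| ≤ 3 * a := by
  have h1 := abs_le.1 (nr_bond e)
  have h2 : nr (bs e) ≤ 3 * a := by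
    by_contra h3
    push Not at h3
    refine he ?_
    simp only [gs]
    rw [const_right hΓ hs (le_tau_sub (by linarith) (show 2 * a ≤ nr (bt e) by linarith))
      (le_tau_sub (by linarith) (show 2 * a ≤ nr (bs e) by linarith)), sub_self]
  exact ⟨(abs_fst_le_nr _).trans h2, (abs_snd_le_nr _).trans h2⟩

/-- the second end point as a shift -/
def sd (d : Bool) : Z2 := if d then (0, 1) else (1, 0)

lemma bt_eq (P : Z2) (d : Bool) : bt (P, d) = P + sd d := by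
  cases d <;> ext <;> simp [bt, sd]

lemma eventually_neg {z : ℝ} (hz : z < 0) (k : ℤ) :
    ∀ᶠ a : ℕ in atTop, ⌊(a : ℝ) * z⌋ ≤ k := by
  have h1 : Tendsto (fun a : ℕ => (a : ℝ) * z) atTop atBot :=
    tendsto_natCast_atTop_atTop.atTop_mul_const_of_neg hz
  filter_upwards [h1.eventually (eventually_le_atBot (k : ℝ))] with a ha
  have h2 := Int.floor_le ((a : ℝ) * z)
  exact_mod_cast h2.trans ha

lemma eventually_pos {z : ℝ} (hz : 0 < z) (k : ℤ) :
    ∀ᶠ a : ℕ in atTop, k ≤ ⌊(a : ℝ) * z⌋ := by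
  have h1 : Tendsto (fun a : ℕ => (a : ℝ) * z) atTop atTop :=
    tendsto_natCast_atTop_atTop.atTop_mul_const hz
  filter_upwards [h1.eventually (eventually_ge_atTop (k : ℝ))] with a ha
  exact Int.le_floor.2 ha

lemma lw_fst_scale {a : ℝ} (ha : 0 < a) {x y : ℝ} (h : x ^ 2 + y ^ 2 ≠ 0) :
    (lw (x / a, y / a)).1 = Real.log (Real.sqrt (x ^ 2 + y ^ 2)) - Real.log a := by
  unfold lw
  simp only
  have h1 : (x / a) ^ 2 + (y / a) ^ 2 = (x ^ 2 + y ^ 2) / a ^ 2 := by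
    rw [div_pow, div_pow]; ring
  rw [h1, Real.sqrt_div (by positivity), Real.sqrt_sq ha.le, Real.log_div _ ha.ne']
  exact (Real.sqrt_pos.2 (lt_of_le_of_ne (by positivity) (Ne.symm h))).ne'

lemma gs_lim (hΓ : ∀ t, HasDerivAt Γ (γ t) t) {z : ℝ × ℝ} (hz : z.2 ≠ 0) (u : Z2) (d : Bool) :
    Tendsto (fun a : ℕ => (a : ℝ) *
      gs (fun P => Γ (tau P - Real.log a)) (fl (a : ℝ) z + u, d)) atTop
      (𝓝 (γ (lw z).1 * ((if d then z.2 else z.1) / (z.1 ^ 2 + z.2 ^ 2)))) := by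
  have hD : HasFDerivAt (fun z => Γ (lw z).1)
      (γ (lw z).1 • (ContinuousLinearMap.fst ℝ ℝ ℝ).comp (lwD z)) z := by
    have h1 := (hasFDerivAt_lw (slit_of_neg hz)).fst
    exact (hΓ (lw z).1).comp_hasFDerivAt z h1
  have h2 := diff_quot (t := fun a : ℕ => (a : ℝ)) tendsto_natCast_atTop_atTop hD
    (((u + sd d).1 : ℝ), ((u + sd d).2 : ℝ)) ((u.1 : ℝ), (u.2 : ℝ))
  have e1 : (γ (lw z).1 • (ContinuousLinearMap.fst ℝ ℝ ℝ).comp (lwD z))
      (((((u + sd d).1 : ℤ) : ℝ), (((u + sd d).2 : ℤ) : ℝ)) - ((u.1 : ℝ), (u.2 : ℝ))) =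
      γ (lw z).1 * ((if d then z.2 else z.1) / (z.1 ^ 2 + z.2 ^ 2)) := by
    cases d <;> simp [sd, lwD_apply]
  rw [e1] at h2
  refine h2.congr' ?_
  have hne : ∀ o : ℤ, ∀ᶠ a : ℕ in atTop, ⌊(a : ℝ) * z.2⌋ + o ≠ 0 := by
    intro o
    rcases lt_or_gt_of_ne hz with h | h
    · filter_upwards [eventually_neg h (-o - 1)] with a ha
      omega
    · filter_upwards [eventually_pos h (-o + 1)] with a ha
      omega
  filter_upwards [hne u.2, hne (u + sd d).2, eventually_gt_atTop 0] with a h3 h4 ha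
  have ha' : (0 : ℝ) < a := by exact_mod_cast ha
  simp only [gs]
  rw [bt_eq]
  simp only [bs]
  have key : ∀ o : Z2, ⌊(a : ℝ) * z.2⌋ + o.2 ≠ 0 →
      (lw ((((fl (a : ℝ) z).1 : ℝ) + (o.1 : ℝ)) / a, (((fl (a : ℝ) z).2 : ℝ) + (o.2 : ℝ)) / a)).1 =
        tau (fl (a : ℝ) z + o) - Real.log a := by
    intro o ho
    rw [lw_fst_scale ha']
    · unfold tau
      simp only [Prod.fst_add, Prod.snd_add, Int.cast_add]
    · have h5 : (((fl (a : ℝ) z).2 : ℝ) + (o.2 : ℝ)) ≠ 0 := by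
        intro h6
        apply ho
        have : (((⌊(a : ℝ) * z.2⌋ + o.2 : ℤ)) : ℝ) = 0 := by
          push_cast
          exact h6
        exact_mod_cast this
      have h6 : 0 < (((fl (a : ℝ) z).2 : ℝ) + (o.2 : ℝ)) ^ 2 := by positivity
      have h7 := sq_nonneg (((fl (a : ℝ) z).1 : ℝ) + (o.1 : ℝ))
      exact (by linarith : (0:ℝ) < (((fl (a : ℝ) z).1 : ℝ) + (o.1 : ℝ)) ^ 2 + (((fl (a : ℝ) z).2 : ℝ) + (o.2 : ℝ)) ^ 2).ne'
  rw [key _ h4, key _ h3, add_assoc]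

end grad

/-! ### the coefficient -/

section coeff

variable {q : ℕ}

lemma lw_snd_pos {z : ℝ × ℝ} (hz : 0 < z.2) : Real.pi < (lw z).2 := by
  unfold lw
  simp only
  have h1 : 0 ≤ (⟨z.1, z.2⟩ : ℂ).arg := Complex.arg_nonneg_iff.2 hz.le
  rcases h1.eq_or_lt with h | h
  · have := (Complex.arg_eq_zero_iff.1 h.symm).2
    simp only at this
    linarith
  · linarith

lemma lw_snd_neg {z : ℝ × ℝ} (hz : z.2 < 0) : (lw z).2 = (⟨-z.1, -z.2⟩ : ℂ).arg := by
  unfold lw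
  simp only
  have h := Complex.arg_neg_eq_arg_add_pi_of_im_neg (x := (⟨z.1, z.2⟩ : ℂ)) hz
  rw [← h]
  congr 1

/-- the cone in polar coordinates -/
lemma lw_lt_ang (hq : 1 ≤ q) {z : ℝ × ℝ} (hz : z.2 < 0) :
    (lw z).2 < ang q ↔ z.1 < q * z.2 := by
  have hq0 : (0 : ℝ) < q := by exact_mod_cast hq
  rw [lw_snd_neg hz]
  rcases le_or_gt 0 z.1 with h | h
  · have h1 : Real.pi / 2 ≤ (⟨-z.1, -z.2⟩ : ℂ).arg := by
      by_contra h2
      push Not at h2
      rw [Complex.arg_lt_pi_div_two_iff] at h2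
      simp only at h2
      rcases h2 with h2 | h2 | h2
      · linarith
      · linarith
      · have := congrArg Complex.im h2
        simp at this
        linarith
    constructor
    · intro h2
      linarith [ang_lt q]
    · intro h2
      nlinarith
  · have h1 : |(⟨-z.1, -z.2⟩ : ℂ).arg| < Real.pi / 2 := by
      rw [Complex.abs_arg_lt_pi_div_two_iff]
      left
      simp only
      linarith
    rw [abs_lt] at h1
    have h2 := Complex.tan_arg (⟨-z.1, -z.2⟩ : ℂ)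
    simp only at h2
    have h3 := Real.arctan_tan h1.1 h1.2
    rw [← h3, h2]
    unfold ang
    rw [Real.arctan_strictMono.lt_iff_lt, div_lt_div_iff₀ (by linarith) hq0]
    constructor <;> intro h4 <;> linarith

lemma ev_large {c : ℝ} (hc : 0 < c) (K : ℝ) : ∀ᶠ a : ℕ in atTop, K ≤ (a : ℝ) * c :=
  (tendsto_natCast_atTop_atTop.atTop_mul_const hc).eventually (eventually_ge_atTop K)

lemma ev_cone (hq : 1 ≤ q) {z : ℝ × ℝ} (hz : z.2 < 0) (hz' : z.1 < q * z.2) (o : Z2) :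
    ∀ᶠ a : ℕ in atTop, fl (a : ℝ) z + o ∈ cone q := by
  filter_upwards [eventually_neg hz (-2 - o.2),
    ev_large (sub_pos.2 hz') ((o.1 : ℝ) - q * o.2)] with a h1 h2
  refine ⟨?_, ?_⟩
  · simp only [fl, Prod.snd_add]
    omega
  · simp only [fl, Prod.snd_add, Prod.fst_add]
    have h3 := Int.floor_le ((a : ℝ) * z.1)
    have h4 := Int.lt_floor_add_one ((a : ℝ) * z.2)
    have h5 : ((q : ℝ)) * (a * z.2) ≤ q * (⌊(a : ℝ) * z.2⌋ + 1) :=
      mul_le_mul_of_nonneg_left h4.le (by positivity)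
    have h6 : (((q : ℤ) * (-1 - (⌊(a : ℝ) * z.2⌋ + o.2)) : ℤ) : ℝ) ≤
        ((-(⌊(a : ℝ) * z.1⌋ + o.1) : ℤ) : ℝ) := by
      push_cast
      nlinarith
    exact_mod_cast h6

lemma ev_not_cone (hq : 1 ≤ q) {z : ℝ × ℝ} (hz : z.2 ≠ 0) (hz' : z.2 < 0 → q * z.2 < z.1) (o : Z2) :
    ∀ᶠ a : ℕ in atTop, fl (a : ℝ) z + o ∉ cone q := by
  rcases lt_or_gt_of_ne hz with h | h
  · filter_upwards [ev_large (sub_pos.2 (hz' h)) ((q : ℝ) * (1 + o.2) + 2 - o.1)] with a h2 h1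
    obtain ⟨-, h1⟩ := h1
    simp only [fl, Prod.snd_add, Prod.fst_add] at h1
    have h3 := Int.lt_floor_add_one ((a : ℝ) * z.1)
    have h4 := Int.floor_le ((a : ℝ) * z.2)
    have h5 : ((q : ℝ)) * (⌊(a : ℝ) * z.2⌋) ≤ q * (a * z.2) :=
      mul_le_mul_of_nonneg_left h4 (by positivity)
    have h6 : (((q : ℤ) * (-1 - (⌊(a : ℝ) * z.2⌋ + o.2)) : ℤ) : ℝ) ≤
        ((-(⌊(a : ℝ) * z.1⌋ + o.1) : ℤ) : ℝ) := by
      exact_mod_cast h1
    push_cast at h6
    nlinarith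
  · filter_upwards [eventually_pos h (-o.2)] with a h1 h2
    have h3 := h2.1
    simp only [fl, Prod.snd_add] at h3
    omega

lemma cf_lim (Y V : ℝ) (hq : 1 ≤ q) {z : ℝ × ℝ} (hz : z.2 ≠ 0) (hz' : z.1 ≠ q * z.2) (u : Z2)
    (d : Bool) :
    ∀ᶠ a : ℕ in atTop, cf Y V q (fl (a : ℝ) z + u, d) = cW (V / Y) (ang q) (lw z).2 := by
  have hrt : ∀ P : Z2, D.rt (P, d) = P + (if d then (0, 0) else (0, -1)) := by
    intro P
    cases d <;> ext <;> simp [D.rt, sub_eq_add_neg]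
  have hlf : ∀ P : Z2, D.lf (P, d) = P + (if d then (-1, 0) else (0, 0)) := by
    intro P
    cases d <;> ext <;> simp [D.lf, sub_eq_add_neg]
  by_cases h : z.2 < 0 ∧ z.1 < q * z.2
  · filter_upwards [ev_cone hq h.1 h.2 (u + (if d then (0, 0) else (0, -1))),
      ev_cone hq h.1 h.2 (u + (if d then (-1, 0) else (0, 0)))] with a h1 h2
    unfold cf cW
    rw [if_pos ((lw_lt_ang hq h.1).2 h.2), if_pos, div_div]
    left
    rw [hrt, hlf, add_assoc, add_assoc]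
    exact ⟨h1, h2⟩
  · have h3 : z.2 < 0 → q * z.2 < z.1 := by
      intro h4
      rcases lt_trichotomy z.1 (q * z.2) with h5 | h5 | h5
      · exact absurd ⟨h4, h5⟩ h
      · exact absurd h5 hz'
      · exact h5
    filter_upwards [ev_not_cone hq hz h3 (u + (if d then (0, 0) else (0, -1)))] with a h1
    unfold cf cW
    have h4 : ¬ (lw z).2 < ang q := by
      rcases lt_or_gt_of_ne hz with h5 | h5
      · rw [lw_lt_ang hq h5]
        exact not_lt.2 (h3 h5).le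
      · have := lw_snd_pos h5
        have := ang_lt q
        have := Real.pi_pos
        linarith
    rw [if_neg h4, if_neg, div_div]
    rw [hrt, add_assoc]
    rintro (h5 | h5)
    · exact h1 h5.1
    · exact h1 h5.1

/-- bound of the coefficient -/
noncomputable def cM (Y V : ℝ) (q : ℕ) : ℝ :=
  |V / (Y * ang q)| + |V / (Y * (2 * Real.pi - ang q))|

lemma cf_abs_le (Y V : ℝ) (q : ℕ) (e : Bnd) : |cf Y V q e| ≤ cM Y V q := by
  unfold cf cM
  split_ifs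
  · linarith [abs_nonneg (V / (Y * (2 * Real.pi - ang q)))]
  · rw [abs_neg]
    linarith [abs_nonneg (V / (Y * ang q))]

end coeff

/-- **the tilt field is a nice family** -/
theorem nf_Bf (Y V : ℝ) {q : ℕ} (hq : 1 ≤ q) {Γ γ : ℝ → ℝ} {A : ℝ}
    (hΓ : ∀ t, HasDerivAt Γ (γ t) t) (hA : ∀ t, |γ t| ≤ A) (hs : ∀ t, 1 / 2 ≤ |t| → γ t = 0) :
    NF atTop (fun a : ℕ => (a : ℝ)) (fun a => Bf Y V q (fun t => Γ (t - Real.log a)))
      (fun d z => cW (V / Y) (ang q) (lw z).2 *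
        (γ (lw z).1 * ((if d then z.2 else z.1) / (z.1 ^ 2 + z.2 ^ 2)))) := by
  refine ⟨⟨cM Y V q * (4 * A), ?_⟩, ⟨3, ?_⟩, ?_⟩
  · filter_upwards [eventually_ge_atTop 4] with a ha e
    have ha' : (4 : ℝ) ≤ a := by exact_mod_cast ha
    unfold Bf
    rw [abs_mul, mul_div_assoc]
    exact mul_le_mul (cf_abs_le Y V q e) (gs_bound hΓ hA hs ha' e) (abs_nonneg _)
      ((abs_nonneg _).trans (cf_abs_le Y V q e))
  · filter_upwards [eventually_ge_atTop 4] with a ha e he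
    have ha' : (4 : ℝ) ≤ a := by exact_mod_cast ha
    refine gs_supp hΓ hs ha' e fun h => he ?_
    unfold Bf
    rw [h, mul_zero]
  · filter_upwards [ae_snd_ne, ae_ne_zero 1 (-(q : ℝ)) (Or.inl one_ne_zero)] with z hz hz' u d
    have h1 : z.1 ≠ q * z.2 := fun h => hz' (by rw [h]; ring)
    have h2 := (gs_lim hΓ hz u d).const_mul (cW (V / Y) (ang q) (lw z).2)
    refine h2.congr' ?_
    filter_upwards [cf_lim Y V hq hz h1 u d] with a ha
    unfold Bf
    rw [ha]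
    ring

end Vale.Agent.P159.T1.H664
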