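import Vale.Agent.P159.T1.H664.NfBf
import Vale.Agent.P159.T1.H777.Lw

/-!
The correction of the numerator is a nice family.
-/

open Filter Topology MeasureTheory Set

namespace Vale.Agent.P159.T1.H664

open Vale.Agent.P159.H353 Vale.Agent.P159.T1.D
open Vale.Agent.P159.T1.H407 (fl riemann diff_quot fl_tendsto)

section psi

variable {v d : ℝ}

/-- the constant value of the stream function away from the lip -/
noncomputable def psC (v d : ℝ) : ℝ := 2 * v / Real.pi * PP d (1 / 2)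

/-- the stream function on the sites -/
noncomputable def psA (v d : ℝ) (a : ℕ) (P : Z2) : ℝ :=
  if P.2 ≤ -1 then psW v d (lw ((P.1 : ℝ) / a, (P.2 : ℝ) / a)) else psC v d

/-- its field, zero on the bonds which cross the slit -/
noncomputable def gps (v d : ℝ) (a : ℕ) (e : Bnd) : ℝ :=
  if e.2 = true ∧ e.1.2 = -1 ∧ e.1.1 < 0 then 0 else gs (psA v d a) e

lemma psW_eq_const (hd : 0 < d) {w : ℝ × ℝ} (h : 1 / 2 ≤ rw w) : psW v d w = psC v d := by
  unfold psW psC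
  rw [PP_eq_right hd h]

lemma fst_le_rw (w : ℝ × ℝ) : |w.1| ≤ rw w := by
  unfold rw
  exact Real.abs_le_sqrt (by nlinarith [sq_nonneg w.2])

lemma snd_le_rw (w : ℝ × ℝ) : |w.2| ≤ rw w := by
  unfold rw
  exact Real.abs_le_sqrt (by nlinarith [sq_nonneg w.1])

lemma rw_nonneg (w : ℝ × ℝ) : 0 ≤ rw w := Real.sqrt_nonneg _

lemma gp_div_abs (hd : 0 < d) {r : ℝ} (hr : 0 ≤ r) : |gp d r / r| ≤ 1 / (4 * d) := by
  rw [abs_of_nonneg (gp_div_nonneg hr)]
  exact gp_div_le hd r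

lemma psx_abs (hd : 0 < d) (w : ℝ × ℝ) : |psx v d w| ≤ |2 * v / Real.pi| * (1 / (4 * d)) := by
  unfold psx
  rw [abs_mul]
  refine mul_le_mul_of_nonneg_left ?_ (abs_nonneg _)
  rcases (rw_nonneg w).eq_or_lt with h | h
  · rw [← h]
    simp
    positivity
  · have e : gp d (rw w) * w.1 / rw w ^ 2 = gp d (rw w) / rw w * (w.1 / rw w) := by
      field_simp
    rw [e, abs_mul]
    have h2 : |w.1 / rw w| ≤ 1 := by
      rw [abs_div, abs_of_pos h, div_le_one h]
      exact fst_le_rw w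
    calc |gp d (rw w) / rw w| * |w.1 / rw w| ≤ 1 / (4 * d) * 1 :=
          mul_le_mul (gp_div_abs hd h.le) h2 (abs_nonneg _) (by positivity)
      _ = 1 / (4 * d) := mul_one _

lemma psy_abs (hd : 0 < d) (w : ℝ × ℝ) : |psy v d w| ≤ |2 * v / Real.pi| * (1 / (4 * d)) := by
  unfold psy
  rw [abs_mul]
  refine mul_le_mul_of_nonneg_left ?_ (abs_nonneg _)
  rcases (rw_nonneg w).eq_or_lt with h | h
  · rw [← h]
    simp
    positivity
  · have e : gp d (rw w) * w.2 / rw w ^ 2 = gp d (rw w) / rw w * (w.2 / rw w) := by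
      field_simp
    rw [e, abs_mul]
    have h2 : |w.2 / rw w| ≤ 1 := by
      rw [abs_div, abs_of_pos h, div_le_one h]
      exact snd_le_rw w
    calc |gp d (rw w) / rw w| * |w.2 / rw w| ≤ 1 / (4 * d) * 1 :=
          mul_le_mul (gp_div_abs hd h.le) h2 (abs_nonneg _) (by positivity)
      _ = 1 / (4 * d) := mul_one _

lemma psx_zero {w : ℝ × ℝ} (h : 1 / 2 ≤ rw w) : psx v d w = 0 := by
  unfold psx
  rw [gp_eq_zero_right h, zero_mul, zero_div, mul_zero]

lemma psy_zero {w : ℝ × ℝ} (h : 1 / 2 ≤ rw w) : psy v d w = 0 := by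
  unfold psy
  rw [gp_eq_zero_right h, zero_mul, zero_div, mul_zero]

/-- the derivative of the stream function -/
noncomputable def psD (v d : ℝ) (z : ℝ × ℝ) : ℝ × ℝ →L[ℝ] ℝ :=
  psx v d (lw z) • (ContinuousLinearMap.fst ℝ ℝ ℝ).comp (lwD z) +
    psy v d (lw z) • (ContinuousLinearMap.snd ℝ ℝ ℝ).comp (lwD z)

lemma psD_apply (v d : ℝ) (z u : ℝ × ℝ) :
    psD v d z u = psx v d (lw z) *
        (z.1 / (z.1 ^ 2 + z.2 ^ 2) * u.1 + z.2 / (z.1 ^ 2 + z.2 ^ 2) * u.2) +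
      psy v d (lw z) *
        (-(z.2 / (z.1 ^ 2 + z.2 ^ 2)) * u.1 + z.1 / (z.1 ^ 2 + z.2 ^ 2) * u.2) := rfl

lemma hasFDerivAt_ps (hd : 0 < d) {z : ℝ × ℝ} (hz : z.2 < 0) :
    HasFDerivAt (fun z => psW v d (lw z)) (psD v d z) z := by
  have h0 := H777.lw_snd_pos z
  have h1 := (H777.hasStrictFDerivAt_rw h0).hasFDerivAt
  have h2 := ((hasDerivAt_PP hd (rw (lw z))).comp_hasFDerivAt (lw z) h1).const_mul
    (2 * v / Real.pi)
  have h3 := h2.comp z (hasFDerivAt_lw (slit_of_neg hz.ne))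
  refine h3.congr_fderiv ?_
  have hr := H777.rw_pos h0
  refine ContinuousLinearMap.ext fun u => ?_
  rw [psD_apply]
  unfold psx psy
  simp only [ContinuousLinearMap.comp_apply, _root_.smul_apply, _root_.add_apply, smul_eq_mul,
    ContinuousLinearMap.coe_fst', ContinuousLinearMap.coe_snd', lwD_apply]
  field_simp

lemma two_le_exp {x : ℝ} (hx : |x| ≤ 1 / 2) : 1 / 2 ≤ Real.exp x ∧ Real.exp x ≤ 2 := by
  rw [abs_le] at hx
  have h1 := exp_half_lt
  have h2 : Real.exp x ≤ Real.exp (1 / 2) := Real.exp_le_exp.2 hx.2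
  have h3 : Real.exp (-(1 / 2)) ≤ Real.exp x := Real.exp_le_exp.2 hx.1
  have h4 : Real.exp (-(1 / 2)) * Real.exp (1 / 2) = 1 := by
    rw [← Real.exp_add]; simp
  constructor
  · nlinarith [Real.exp_pos (-(1 / 2))]
  · linarith

/-- the modulus from the logarithmic coordinate -/
lemma exp_lw {z : ℝ × ℝ} (hz : z.2 ≠ 0) :
    Real.exp (lw z).1 ^ 2 = z.1 ^ 2 + z.2 ^ 2 := by
  have h0 : 0 < z.1 ^ 2 + z.2 ^ 2 := by positivity
  unfold lw
  simp only
  rw [Real.exp_log (Real.sqrt_pos.2 h0), Real.sq_sqrt h0.le]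

/-- bound of the derivative -/
noncomputable def psM (v d : ℝ) : ℝ := |2 * v / Real.pi| * (1 / (4 * d)) * 8

lemma psM_nonneg (hd : 0 < d) : 0 ≤ psM v d := by unfold psM; positivity

lemma psD_norm (hd : 0 < d) {z : ℝ × ℝ} (hz : z.2 ≠ 0) : ‖psD v d z‖ ≤ psM v d := by
  refine ContinuousLinearMap.opNorm_le_bound _ (psM_nonneg hd) fun u => ?_
  rw [psD_apply]
  rcases le_or_gt (1 / 2) (rw (lw z)) with h | h
  · rw [psx_zero h, psy_zero h, zero_mul, zero_mul, add_zero, norm_zero]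
    exact mul_nonneg (psM_nonneg hd) (norm_nonneg _)
  · have h1 : |(lw z).1| ≤ 1 / 2 := (fst_le_rw _).trans h.le
    obtain ⟨h2, -⟩ := two_le_exp h1
    have h3 := exp_lw hz
    have hs : (1 / 4 : ℝ) ≤ z.1 ^ 2 + z.2 ^ 2 := by
      rw [← h3]; nlinarith
    have hs0 : 0 < z.1 ^ 2 + z.2 ^ 2 := by linarith
    have h4 : ∀ x : ℝ, x ^ 2 ≤ z.1 ^ 2 + z.2 ^ 2 → |x / (z.1 ^ 2 + z.2 ^ 2)| ≤ 2 := by
      intro x hx
      rw [abs_div, abs_of_pos hs0, div_le_iff₀ hs0]
      have h5 : |x| ^ 2 ≤ (z.1 ^ 2 + z.2 ^ 2) := by rw [sq_abs]; exact hx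
      by_contra h6
      push Not at h6
      have h7 : (2 * (z.1 ^ 2 + z.2 ^ 2)) ^ 2 < |x| ^ 2 :=
        pow_lt_pow_left₀ h6 (by linarith) (by norm_num)
      nlinarith
    have h5 := h4 z.1 (by nlinarith [sq_nonneg z.2])
    have h6 := h4 z.2 (by nlinarith [sq_nonneg z.1])
    have hu1 : |u.1| ≤ ‖u‖ := norm_fst_le u
    have hu2 : |u.2| ≤ ‖u‖ := norm_snd_le u
    have hn := norm_nonneg u
    have hK := psx_abs (v := v) hd (lw z)
    have hK' := psy_abs (v := v) hd (lw z)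
    have hK0 : 0 ≤ |2 * v / Real.pi| * (1 / (4 * d)) := by positivity
    have h7 : |z.1 / (z.1 ^ 2 + z.2 ^ 2) * u.1 + z.2 / (z.1 ^ 2 + z.2 ^ 2) * u.2| ≤ 4 * ‖u‖ := by
      refine (abs_add_le _ _).trans ?_
      rw [abs_mul, abs_mul]
      have := mul_le_mul h5 hu1 (abs_nonneg _) (by norm_num)
      have := mul_le_mul h6 hu2 (abs_nonneg _) (by norm_num)
      linarith
    have h8 : |-(z.2 / (z.1 ^ 2 + z.2 ^ 2)) * u.1 + z.1 / (z.1 ^ 2 + z.2 ^ 2) * u.2| ≤
        4 * ‖u‖ := by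
      refine (abs_add_le _ _).trans ?_
      rw [abs_mul, abs_mul, abs_neg]
      have := mul_le_mul h6 hu1 (abs_nonneg _) (by norm_num)
      have := mul_le_mul h5 hu2 (abs_nonneg _) (by norm_num)
      linarith
    rw [Real.norm_eq_abs]
    refine (abs_add_le _ _).trans ?_
    rw [abs_mul, abs_mul]
    have h9 := mul_le_mul hK h7 (abs_nonneg _) hK0
    have h10 := mul_le_mul hK' h8 (abs_nonneg _) hK0
    unfold psM
    nlinarith

lemma ps_lip (hd : 0 < d) {z z' : ℝ × ℝ} (hz : z.2 < 0) (hz' : z'.2 < 0) :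
    |psW v d (lw z) - psW v d (lw z')| ≤ psM v d * ‖z - z'‖ := by
  have hc : Convex ℝ {z : ℝ × ℝ | z.2 < 0} :=
    (convex_Iio (0 : ℝ)).linear_preimage (LinearMap.snd ℝ ℝ ℝ)
  have h := hc.norm_image_sub_le_of_norm_hasFDerivWithin_le (𝕜 := ℝ)
    (f := fun z => psW v d (lw z)) (f' := psD v d) (C := psM v d)
    (fun x hx => (hasFDerivAt_ps hd hx).hasFDerivWithinAt)
    (fun x hx => psD_norm hd (ne_of_lt hx)) hz' hz
  exact h

/-- above the lip and to the right of the tip the stream function is constant -/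
lemma psA_const (hd : 0 < d) {a : ℕ} (ha : 1 ≤ a) {P : Z2} (h : -1 < P.2 ∨ 0 ≤ P.1) :
    psA v d a P = psC v d := by
  unfold psA
  split_ifs with h1
  · rcases h with h | h
    · omega
    · refine psW_eq_const hd ?_
      refine le_trans ?_ ((le_abs_self _).trans (snd_le_rw _))
      unfold lw
      simp only
      have h2 : -(Real.pi / 2) ≤ (⟨(P.1 : ℝ) / a, (P.2 : ℝ) / a⟩ : ℂ).arg := by
        rw [Complex.neg_pi_div_two_le_arg_iff]
        left
        simp only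
        have : (0 : ℝ) ≤ P.1 := by exact_mod_cast h
        positivity
      have := Real.pi_gt_three
      linarith
  · rfl

lemma gps_cases (hd : 0 < d) {a : ℕ} (ha : 1 ≤ a) (e : Bnd) :
    gps v d a e = 0 ∨ ((bs e).2 ≤ -1 ∧ (bt e).2 ≤ -1 ∧ gps v d a e =
      psW v d (lw (((bt e).1 : ℝ) / a, ((bt e).2 : ℝ) / a)) -
        psW v d (lw (((bs e).1 : ℝ) / a, ((bs e).2 : ℝ) / a))) := by
  unfold gps
  split_ifs with h
  · exact Or.inl rfl
  · simp only [gs]
    by_cases h1 : (bs e).2 ≤ -1 ∧ (bt e).2 ≤ -1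
    · right
      refine ⟨h1.1, h1.2, ?_⟩
      unfold psA
      rw [if_pos h1.1, if_pos h1.2]
    · left
      have h2 : -1 < (bt e).2 := by
        rcases e with ⟨P, d'⟩
        cases d' <;> simp [bs, bt] at h1 ⊢ <;> omega
      rw [psA_const hd ha (Or.inl h2), psA_const hd ha, sub_self]
      rcases e with ⟨P, d'⟩
      cases d'
      · simp [bs, bt] at h2 ⊢
        left
        omega
      · simp [bs, bt] at h h2 ⊢
        by_cases h3 : P.2 = -1
        · right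
          exact h h3
        · left
          omega

lemma norm_bond {a : ℕ} (ha : 1 ≤ a) (e : Bnd) :
    ‖((((bt e).1 : ℝ) / a, ((bt e).2 : ℝ) / a) : ℝ × ℝ) -
      (((bs e).1 : ℝ) / a, ((bs e).2 : ℝ) / a)‖ ≤ 1 / a := by
  have ha' : (0 : ℝ) < a := by exact_mod_cast ha
  rw [Prod.norm_def]
  refine max_le ?_ ?_
  · simp only [Prod.fst_sub]
    rw [← sub_div, norm_div, Real.norm_eq_abs, Real.norm_eq_abs, abs_of_pos ha']
    refine div_le_div_of_nonneg_right ?_ ha'.le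
    rcases e with ⟨P, d'⟩
    cases d' <;> simp [bs, bt]
  · simp only [Prod.snd_sub]
    rw [← sub_div, norm_div, Real.norm_eq_abs, Real.norm_eq_abs, abs_of_pos ha']
    refine div_le_div_of_nonneg_right ?_ ha'.le
    rcases e with ⟨P, d'⟩
    cases d' <;> simp [bs, bt]

lemma ngdiv {a : ℕ} (ha : 1 ≤ a) {j : ℤ} (h : j ≤ -1) : ((j : ℤ) : ℝ) / a < 0 := by
  have ha' : (0 : ℝ) < a := by exact_mod_cast ha
  have : ((j : ℤ) : ℝ) ≤ -1 := by exact_mod_cast h
  exact div_neg_of_neg_of_pos (by linarith) ha'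

lemma gps_bound (hd : 0 < d) {a : ℕ} (ha : 1 ≤ a) (e : Bnd) :
    |gps v d a e| ≤ psM v d / a := by
  rcases gps_cases (v := v) hd ha e with h | ⟨h1, h2, h3⟩
  · rw [h, abs_zero]
    exact div_nonneg (psM_nonneg hd) (Nat.cast_nonneg a)
  · rw [h3]
    refine (ps_lip hd (ngdiv ha h2) (ngdiv ha h1)).trans ?_
    rw [div_eq_mul_one_div (psM v d)]
    exact mul_le_mul_of_nonneg_left (norm_bond ha e) (psM_nonneg hd)

lemma near_of_rw {a : ℕ} (ha : 1 ≤ a) {P : Z2} (hP : P.2 ≤ -1)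
    (h : rw (lw ((P.1 : ℝ) / a, (P.2 : ℝ) / a)) < 1 / 2) :
    |(P.1 : ℝ)| ≤ 2 * a ∧ |(P.2 : ℝ)| ≤ 2 * a := by
  have ha' : (0 : ℝ) < a := by exact_mod_cast ha
  have h1 : |(lw ((P.1 : ℝ) / a, (P.2 : ℝ) / a)).1| ≤ 1 / 2 := (fst_le_rw _).trans h.le
  have h2 := (two_le_exp h1).2
  have h3 := exp_lw (z := ((P.1 : ℝ) / a, (P.2 : ℝ) / a)) (ngdiv ha hP).ne
  simp only at h3
  have h4 : ((P.1 : ℝ) / a) ^ 2 + ((P.2 : ℝ) / a) ^ 2 ≤ 2 ^ 2 := by
    rw [← h3]
    exact pow_le_pow_left₀ (Real.exp_pos _).le h2 2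
  constructor
  · have h5 : ((P.1 : ℝ) / a) ^ 2 ≤ 2 ^ 2 := by nlinarith [sq_nonneg ((P.2 : ℝ) / a)]
    have h6 := abs_le_of_sq_le_sq h5 (by norm_num)
    rw [abs_le, div_le_iff₀ ha', le_div_iff₀ ha'] at h6
    rw [abs_le]
    constructor <;> linarith
  · have h5 : ((P.2 : ℝ) / a) ^ 2 ≤ 2 ^ 2 := by nlinarith [sq_nonneg ((P.1 : ℝ) / a)]
    have h6 := abs_le_of_sq_le_sq h5 (by norm_num)
    rw [abs_le, div_le_iff₀ ha', le_div_iff₀ ha'] at h6
    rw [abs_le]
    constructor <;> linarith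

lemma gps_supp (hd : 0 < d) {a : ℕ} (ha : 1 ≤ a) (e : Bnd) (he : gps v d a e ≠ 0) :
    |(e.1.1 : ℝ)| ≤ 3 * a ∧ |(e.1.2 : ℝ)| ≤ 3 * a := by
  have ha' : (1 : ℝ) ≤ a := by exact_mod_cast ha
  rcases gps_cases (v := v) hd ha e with h | ⟨h1, h2, h3⟩
  · exact absurd h he
  · by_cases h4 : rw (lw (((bs e).1 : ℝ) / a, ((bs e).2 : ℝ) / a)) < 1 / 2
    · obtain ⟨h5, h6⟩ := near_of_rw ha h1 h4
      exact ⟨h5.trans (by linarith), h6.trans (by linarith)⟩
    · by_cases h7 : rw (lw (((bt e).1 : ℝ) / a, ((bt e).2 : ℝ) / a)) < 1 / 2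
      · obtain ⟨h5, h6⟩ := near_of_rw ha h2 h7
        rw [abs_le] at h5 h6
        rcases e with ⟨P, d'⟩
        cases d' <;> simp [bt] at h5 h6 ⊢ <;> rw [abs_le, abs_le] <;>
          refine ⟨⟨?_, ?_⟩, ?_, ?_⟩ <;> linarith
      · exfalso
        apply he
        rw [h3, psW_eq_const hd (not_lt.1 h4), psW_eq_const hd (not_lt.1 h7), sub_self]

lemma gps_lim (hd : 0 < d) {z : ℝ × ℝ} (hz : z.2 ≠ 0) (u : Z2) (d' : Bool) :
    Tendsto (fun a : ℕ => (a : ℝ) * gps v d a (fl (a : ℝ) z + u, d')) atTop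
      (𝓝 (psx v d (lw z) * ((if d' then z.2 else z.1) / (z.1 ^ 2 + z.2 ^ 2)) +
        psy v d (lw z) * ((if d' then z.1 else -z.2) / (z.1 ^ 2 + z.2 ^ 2)))) := by
  rcases lt_or_gt_of_ne hz with h | h
  · have h2 := diff_quot (t := fun a : ℕ => (a : ℝ)) tendsto_natCast_atTop_atTop
      (hasFDerivAt_ps (v := v) hd h)
      (((u + sd d').1 : ℝ), ((u + sd d').2 : ℝ)) ((u.1 : ℝ), (u.2 : ℝ))
    have e1 : psD v d z
        (((((u + sd d').1 : ℤ) : ℝ), (((u + sd d').2 : ℤ) : ℝ)) - ((u.1 : ℝ), (u.2 : ℝ))) =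
        psx v d (lw z) * ((if d' then z.2 else z.1) / (z.1 ^ 2 + z.2 ^ 2)) +
        psy v d (lw z) * ((if d' then z.1 else -z.2) / (z.1 ^ 2 + z.2 ^ 2)) := by
      rw [psD_apply]
      cases d' <;> simp [sd]
      ring
    rw [e1] at h2
    refine h2.congr' ?_
    filter_upwards [eventually_neg h (-2 - u.2), eventually_neg h (-2 - (u + sd d').2),
      eventually_gt_atTop 0] with a h3 h4 ha
    have h5 : (fl (a : ℝ) z + u).2 ≤ -2 := by
      simp only [fl, Prod.snd_add]; omega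
    have h6 : (fl (a : ℝ) z + u + sd d').2 ≤ -2 := by
      rw [add_assoc]
      simp only [fl, Prod.snd_add] at h4 ⊢; omega
    unfold gps
    rw [if_neg (by rintro ⟨-, h7, -⟩; simp only at h7; omega)]
    simp only [gs]
    rw [bt_eq]
    simp only [bs]
    unfold psA
    rw [if_pos (by omega), if_pos (by omega)]
    simp only [Prod.fst_add, Prod.snd_add, Int.cast_add, add_assoc]
  · have h1 : 1 / 2 ≤ rw (lw z) := by
      have h2 := lw_snd_pos h
      have h3 := (le_abs_self _).trans (snd_le_rw (lw z))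
      have := Real.pi_gt_three
      linarith
    rw [psx_zero h1, psy_zero h1, zero_mul, zero_mul, add_zero]
    refine tendsto_const_nhds.congr' ?_
    filter_upwards [eventually_pos h (-u.2), eventually_pos h (-(u + sd d').2),
      eventually_ge_atTop 1] with a h3 h4 ha
    have h5 : 0 ≤ (fl (a : ℝ) z + u).2 := by
      simp only [fl, Prod.snd_add]; omega
    have h6 : 0 ≤ (fl (a : ℝ) z + u + sd d').2 := by
      rw [add_assoc]
      simp only [fl, Prod.snd_add] at h4 ⊢; omega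
    unfold gps
    rw [if_neg (by rintro ⟨-, h7, -⟩; simp only at h7; omega)]
    simp only [gs]
    rw [bt_eq]
    simp only [bs]
    rw [psA_const hd ha (Or.inl (by omega)), psA_const hd ha (Or.inl (by omega)), sub_self,
      mul_zero]

/-- **the correction is a nice family** -/
theorem nf_gps (v : ℝ) (hd : 0 < d) :
    NF atTop (fun a : ℕ => (a : ℝ)) (fun a => gps v d a)
      (fun d' z => psx v d (lw z) * ((if d' then z.2 else z.1) / (z.1 ^ 2 + z.2 ^ 2)) +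
        psy v d (lw z) * ((if d' then z.1 else -z.2) / (z.1 ^ 2 + z.2 ^ 2))) := by
  refine ⟨⟨psM v d, ?_⟩, ⟨3, ?_⟩, ?_⟩
  · filter_upwards [eventually_ge_atTop 1] with a ha e
    exact gps_bound hd ha e
  · filter_upwards [eventually_ge_atTop 1] with a ha e he
    exact gps_supp hd ha e he
  · filter_upwards [ae_snd_ne] with z hz u d'
    exact gps_lim hd hz u d'

end psi

end Vale.Agent.P159.T1.H664
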