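import Vale.Agent.P159.T1.H664.NfPs
import Vale.Agent.P159.T1.H395.Bridge
import Vale.Agent.P159.T1.H407.ArmTilt
import Vale.Agent.P159.T1.H910.DKit
import Vale.Agent.P159.T1.H934.Hpos

/-!
The numerator of `StmtArm`.
-/

open Filter Topology MeasureTheory Set

namespace Vale.Agent.P159.T1.H664

open Vale.Agent.P159.H353 Vale.Agent.P159.T1.D
open Vale.Agent.P159.T1.H407 (fl riemann diff_quot fl_tendsto)

/-! ### the profiles -/

lemma hasDerivAt_GB (d t : ℝ) : HasDerivAt (GB d) (gp d t) t :=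
  intervalIntegral.integral_hasDerivAt_right ((continuous_gp d).intervalIntegrable _ _)
    ((continuous_gp d).stronglyMeasurableAtFilter _ _) (continuous_gp d).continuousAt

lemma hasDerivAt_GA (d t : ℝ) : HasDerivAt (GA d) (gp d (-t)) t := by
  have h1 := ((hasDerivAt_GB d (-t)).comp t (hasDerivAt_neg t)).neg
  refine h1.congr_deriv ?_
  ring

/-- the slope of the numerator -/
noncomputable def gm (d t : ℝ) : ℝ := gp d (-t) - gp d t

lemma gm_abs (d t : ℝ) : |gm d t| ≤ 1 := by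
  unfold gm
  rw [abs_le]
  have h1 := gp_nonneg d t
  have h2 := gp_nonneg d (-t)
  have h3 := gp_le_one d t
  have h4 := gp_le_one d (-t)
  constructor <;> linarith

lemma gm_zero {d t : ℝ} (hd : 0 < d) (ht : 1 / 2 ≤ |t|) : gm d t = 0 := by
  unfold gm
  rcases le_total 0 t with h | h
  · rw [abs_of_nonneg h] at ht
    rw [gp_eq_zero_right ht, gp_eq_zero_left hd (by linarith), sub_self]
  · rw [abs_of_nonpos h] at ht
    rw [gp_eq_zero_right ht, gp_eq_zero_left hd (by linarith), sub_self]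

lemma gm_sq {d : ℝ} (hd : 0 < d) (t : ℝ) : gm d t ^ 2 = gp d |t| ^ 2 := by
  unfold gm
  rcases le_total 0 t with h | h
  · rw [abs_of_nonneg h, gp_eq_zero_left hd (x := -t) (by linarith)]
    ring
  · rw [abs_of_nonpos h, gp_eq_zero_left hd (x := t) (by linarith)]
    ring

/-! ### integrals -/

/-- the total mass of the squared profile -/
noncomputable def Ig (d : ℝ) : ℝ := ∫ x : ℝ, gp d |x| ^ 2

lemma Ig_nonneg (d : ℝ) : 0 ≤ Ig d := integral_nonneg fun x => sq_nonneg _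

lemma gp_abs_supp {d : ℝ} {x : ℝ} (hx : x ∉ Icc (-(1 / 2) : ℝ) (1 / 2)) : gp d |x| ^ 2 = 0 := by
  have : 1 / 2 ≤ |x| := by
    by_contra h
    push Not at h
    rw [abs_lt] at h
    exact hx ⟨h.1.le, h.2.le⟩
  rw [gp_eq_zero_right this]
  ring

lemma continuous_gpa (d : ℝ) : Continuous fun x : ℝ => gp d |x| ^ 2 :=
  ((continuous_gp d).comp continuous_abs).pow 2

lemma integrable_gpa (d : ℝ) : Integrable fun x : ℝ => gp d |x| ^ 2 := by
  refine (continuous_gpa d).integrable_of_hasCompactSupport ?_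
  exact HasCompactSupport.intro (isCompact_Icc (a := (-(1 / 2) : ℝ)) (b := 1 / 2))
    fun x hx => gp_abs_supp hx

lemma Ig_le_one (d : ℝ) : Ig d ≤ 1 := by
  unfold Ig
  rw [← setIntegral_eq_integral_of_forall_compl_eq_zero (s := Icc (-(1 / 2) : ℝ) (1 / 2))
    fun x hx => gp_abs_supp hx]
  have h1 : ∫ x in Icc (-(1 / 2) : ℝ) (1 / 2), gp d |x| ^ 2 ≤
      ∫ _x in Icc (-(1 / 2) : ℝ) (1 / 2), (1 : ℝ) := by
    refine setIntegral_mono_on (integrable_gpa d).integrableOn (integrableOn_const (by simp))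
      measurableSet_Icc fun x _ => ?_
    have h1 := gp_nonneg d |x|
    have h2 := gp_le_one d |x|
    nlinarith
  refine h1.trans ?_
  rw [setIntegral_const]
  simp [Measure.real]
  norm_num

lemma measurable_cW (v d : ℝ) : Measurable (cW v d) :=
  Measurable.ite measurableSet_Iio measurable_const measurable_const

lemma cW_int {v d : ℝ} (hd : 0 < d) (hd1 : d < 2 * Real.pi) :
    ∫ y in Ioo 0 (2 * Real.pi), cW v d y ^ 2 = v ^ 2 * (1 / d + 1 / (2 * Real.pi - d)) := by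
  have h1 : Ioo 0 (2 * Real.pi) = Ioo 0 d ∪ Ico d (2 * Real.pi) :=
    (Ioo_union_Ico_eq_Ioo hd hd1.le).symm
  have h2 : Disjoint (Ioo 0 d) (Ico d (2 * Real.pi)) := by
    rw [Set.disjoint_left]
    intro x hx hx'
    exact absurd hx.2 (not_lt.2 hx'.1)
  have i1 : ∫ y in Ioo 0 d, cW v d y ^ 2 = ∫ y in Ioo 0 d, (v / d) ^ 2 :=
    setIntegral_congr_fun measurableSet_Ioo fun y hy => by
      simp only [cW]; rw [if_pos hy.2]
  have i2 : ∫ y in Ico d (2 * Real.pi), cW v d y ^ 2 =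
      ∫ y in Ico d (2 * Real.pi), (-(v / (2 * Real.pi - d))) ^ 2 :=
    setIntegral_congr_fun measurableSet_Ico fun y hy => by
      simp only [cW]; rw [if_neg (not_lt.2 hy.1)]
  have j1 : IntegrableOn (fun y => cW v d y ^ 2) (Ioo 0 d) := by
    refine (integrableOn_const (C := (v / d) ^ 2) (by simp)).congr_fun (fun y hy => ?_)
      measurableSet_Ioo
    simp only [cW]; rw [if_pos hy.2]
  have j2 : IntegrableOn (fun y => cW v d y ^ 2) (Ico d (2 * Real.pi)) := by
    refine (integrableOn_const (C := (-(v / (2 * Real.pi - d))) ^ 2) (by simp)).congr_fun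
      (fun y hy => ?_) measurableSet_Ico
    simp only [cW]; rw [if_neg (not_lt.2 hy.1)]
  rw [h1, setIntegral_union h2 measurableSet_Ico j1 j2, i1, i2, setIntegral_const,
    setIntegral_const]
  have h3 : 0 < 2 * Real.pi - d := by linarith
  simp only [Measure.real, Real.volume_Ioo, Real.volume_Ico, sub_zero, smul_eq_mul]
  rw [ENNReal.toReal_ofReal hd.le, ENNReal.toReal_ofReal h3.le]
  field_simp

lemma strp_prod : strp = (univ : Set ℝ) ×ˢ Ioo 0 (2 * Real.pi) := by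
  ext w
  simp [strp]

lemma cg_integrable {v d : ℝ} :
    IntegrableOn (fun w : ℝ × ℝ => gp d |w.1| ^ 2 * cW v d w.2 ^ 2) strp := by
  rw [strp_prod, IntegrableOn, Measure.volume_eq_prod, ← Measure.prod_restrict]
  refine Integrable.mul_prod (f := fun x => gp d |x| ^ 2) (g := fun y => cW v d y ^ 2) ?_ ?_
  · exact (integrable_gpa d).integrableOn
  · refine Integrable.mono' (g := fun _ => max ((v / d) ^ 2) ((v / (2 * Real.pi - d)) ^ 2))
      (integrableOn_const (by rw [Real.volume_Ioo]; exact ENNReal.ofReal_ne_top)) ?_ ?_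
    · exact ((measurable_cW v d).pow_const 2).aestronglyMeasurable
    · refine Eventually.of_forall fun y => ?_
      rw [Real.norm_eq_abs, abs_of_nonneg (sq_nonneg _)]
      unfold cW
      split_ifs
      · exact le_max_left _ _
      · rw [neg_sq]; exact le_max_right _ _

lemma cg_int {v d : ℝ} (hd : 0 < d) (hd1 : d < 2 * Real.pi) :
    ∫ w in strp, gp d |w.1| ^ 2 * cW v d w.2 ^ 2 =
      v ^ 2 * (1 / d + 1 / (2 * Real.pi - d)) * Ig d := by
  rw [strp_prod, Measure.volume_eq_prod, setIntegral_prod_mul (fun x : ℝ => gp d |x| ^ 2)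
    (fun y => cW v d y ^ 2), cW_int hd hd1, setIntegral_univ]
  unfold Ig
  ring

lemma H1_scale (v d : ℝ) (w : ℝ × ℝ) : H1 v d w = v ^ 2 * H1 1 d w := by
  have h1 : cW v d w.2 = v * cW 1 d w.2 := by
    unfold cW
    split_ifs <;> ring
  unfold H1 psx psy
  rw [h1]
  ring

/-- the limit of the field of the numerator -/
noncomputable def Ln (v d : ℝ) (d' : Bool) (z : ℝ × ℝ) : ℝ :=
  cW v d (lw z).2 * (gm d (lw z).1 * ((if d' then z.2 else z.1) / (z.1 ^ 2 + z.2 ^ 2))) +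
    (psx v d (lw z) * ((if d' then z.2 else z.1) / (z.1 ^ 2 + z.2 ^ 2)) +
      psy v d (lw z) * ((if d' then z.1 else -z.2) / (z.1 ^ 2 + z.2 ^ 2)))

lemma Ln_sq (v d : ℝ) (z : ℝ × ℝ) : Ln v d true z ^ 2 + Ln v d false z ^ 2 =
    ((cW v d (lw z).2 * gm d (lw z).1 + psx v d (lw z)) ^ 2 + psy v d (lw z) ^ 2) /
      (z.1 ^ 2 + z.2 ^ 2) := by
  unfold Ln
  simp only [if_true, Bool.false_eq_true, if_false]
  rcases (show 0 ≤ z.1 ^ 2 + z.2 ^ 2 by positivity).eq_or_lt with h | h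
  · rw [← h]
    simp
  · field_simp
    ring

/-- the limit energy of the numerator -/
theorem Ln_int {v d : ℝ} (hd : 0 < d) (hd1 : d ≤ 1 / 8) :
    ∫ z, Ln v d true z ^ 2 + Ln v d false z ^ 2 =
      v ^ 2 * (1 / d + 1 / (2 * Real.pi - d)) * Ig d + v ^ 2 * ∫ w in strp, H1 1 d w := by
  have hpi := Real.pi_gt_three
  have h0 := H395.stmtPull fun w => (cW v d w.2 * gm d w.1 + psx v d w) ^ 2 + psy v d w ^ 2
  simp only [Ln_sq]
  rw [h0]
  have e : ∀ w : ℝ × ℝ, (cW v d w.2 * gm d w.1 + psx v d w) ^ 2 + psy v d w ^ 2 =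
      gp d |w.1| ^ 2 * cW v d w.2 ^ 2 + v ^ 2 * H1 1 d w := by
    intro w
    rw [← H1_scale, ← gm_sq hd]
    unfold H1 gm
    ring
  simp only [e]
  have hi : IntegrableOn (H1 1 d) strp := by
    have h1 := H395.integrable_j1 hd hd1
    rw [H395.strp_eq]
    exact h1.congr_fun_ae (Eventually.of_forall fun w => (H395.H1_eq hd w).symm)
  rw [integral_add cg_integrable (hi.const_mul _), cg_int hd (by linarith), integral_const_mul]

/-! ### the field of the numerator -/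

/-- the field of the numerator -/
noncomputable def Bn (Y V : ℝ) (q a : ℕ) (e : Bnd) : ℝ :=
  Bf Y V q (fun t => GA (ang q) (t - Real.log a) - GB (ang q) (t - Real.log a)) e +
    gps (V / Y) (ang q) a e

lemma nf_Bn (Y V : ℝ) {q : ℕ} (hq : 1 ≤ q) :
    NF atTop (fun a : ℕ => (a : ℝ)) (fun a => Bn Y V q a) (Ln (V / Y) (ang q)) := by
  have hd := ang_pos hq
  have h1 := nf_Bf Y V hq (Γ := fun t => GA (ang q) t - GB (ang q) t) (γ := gm (ang q)) (A := 1)
    (fun t => (hasDerivAt_GA _ t).sub (hasDerivAt_GB _ t)) (gm_abs _) fun t ht => gm_zero hd ht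
  exact h1.add tendsto_natCast_atTop_atTop (nf_gps (V / Y) hd)

lemma dv_gps (v d : ℝ) (a : ℕ) {f : Z2} (hf : ¬ (f.2 = -1 ∧ f.1 < 0)) :
    D.dv (gps v d a) f = 0 := by
  have h0 := dv_gs (psA v d a) f
  rw [← h0]
  have h1 : ∀ P : Z2, gps v d a (P, false) = gs (psA v d a) (P, false) := by
    intro P
    unfold gps
    rw [if_neg (by simp)]
  have h2 : gps v d a (f, true) = gs (psA v d a) (f, true) := by
    unfold gps
    rw [if_neg (by rintro ⟨-, h3, h4⟩; exact hf ⟨h3, h4⟩)]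
  have h3 : gps v d a ((f.1 + 1, f.2), true) = gs (psA v d a) ((f.1 + 1, f.2), true) := by
    unfold gps
    rw [if_neg (by rintro ⟨-, h3, h4⟩; simp only at h3 h4; exact hf ⟨h3, by omega⟩)]
  unfold D.dv
  rw [h1, h1, h2, h3]

lemma isDiv_Bn (Y V : ℝ) {q : ℕ} (hq : 1 ≤ q) (a : ℕ) {U : Finset Z2}
    (hU : ∀ f ∈ U, ¬ (f.2 = -1 ∧ f.1 < 0)) :
    IsDiv U (Bn Y V q a) (fun f => rA Y V q a f - rB Y V q a f) := by
  have hU' : ∀ f ∈ U, f.2 ≠ -1 ∨ 0 ≤ f.1 := fun f hf => by have := hU f hf; omega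
  have h1 := isDiv_Bf' (Y := Y) (V := V) hU' hq
    (Γ := fun t => GA (ang q) (t - Real.log a) - GB (ang q) (t - Real.log a))
  have h2 : IsDiv U (gps (V / Y) (ang q) a) 0 := fun f hf => dv_gps _ _ a (hU f hf)
  refine (h1.add h2).congr fun f _ => ?_
  simp only [Pi.add_apply, Pi.zero_apply, add_zero]
  exact ro_sub (Γ := fun t => GA (ang q) (t - Real.log a))
    (Γ' := fun t => GB (ang q) (t - Real.log a)) f

/-- a box of bonds which contains the supports -/
lemma NF.exists_box {ι : Type*} {l : Filter ι} {t : ι → ℝ} {X : ι → Bnd → ℝ}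
    {F : Bool → ℝ × ℝ → ℝ} (h : NF l t X F) :
    ∃ S : ι → Finset Bnd, ∀ᶠ i in l, ∀ e, e ∉ S i → X i e = 0 := by
  obtain ⟨R, hR⟩ := h.supp
  refine ⟨fun i => (Finset.Icc (-⌈R * t i⌉) ⌈R * t i⌉ ×ˢ Finset.Icc (-⌈R * t i⌉) ⌈R * t i⌉) ×ˢ
      (Finset.univ : Finset Bool), ?_⟩
  filter_upwards [hR] with i hi e he
  by_contra h0
  obtain ⟨h2, h3⟩ := hi e h0
  apply he
  have h4 : ∀ a : ℤ, |(a : ℝ)| ≤ R * t i → a ∈ Finset.Icc (-⌈R * t i⌉) ⌈R * t i⌉ := by
    intro a ha
    have h5 := Int.le_ceil (R * t i)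
    rw [abs_le] at ha
    rw [Finset.mem_Icc]
    constructor
    · have : -((⌈R * t i⌉ : ℤ) : ℝ) ≤ (a : ℝ) := by linarith
      exact_mod_cast this
    · have : (a : ℝ) ≤ ((⌈R * t i⌉ : ℤ) : ℝ) := by linarith
      exact_mod_cast this
  exact Finset.mem_product.2 ⟨Finset.mem_product.2 ⟨h4 _ h2, h4 _ h3⟩, Finset.mem_univ _⟩

lemma ang_le_inv {q : ℕ} (hq : 1 ≤ q) : ang q ≤ 1 / q := by
  have h := Real.lt_tan (ang_pos hq) (ang_lt q)
  unfold ang at h ⊢
  rw [Real.tan_arctan] at h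
  exact h.le

lemma log_le_log_ang {q : ℕ} (hq : 1 ≤ q) : Real.log q ≤ Real.log (1 / ang q) := by
  have hq0 : (0 : ℝ) < q := by exact_mod_cast hq
  refine Real.log_le_log hq0 ?_
  rw [le_div_iff₀ (ang_pos hq)]
  have := ang_le_inv hq
  rw [le_div_iff₀ hq0] at this
  linarith

/-- **NUM** -/
theorem stmtNum (hU : StmtU) : StmtNum := by
  intro b V hb hV
  obtain ⟨hb0, hY'⟩ := H934.pos_of_ge b hb
  have hpi := Real.pi_gt_three
  have hY : 0 < helicity b := lt_of_lt_of_le (by positivity) hY'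
  obtain ⟨C1, d0, hd0, hJ⟩ := H395.stmtJ1'
  set Y := helicity b with hYdef
  obtain ⟨q1, hq1⟩ := exists_nat_gt (1 / d0)
  refine ⟨V ^ 2 / (2 * Y * Real.pi) + V ^ 2 / (2 * Y) * C1 + 1, max q1 8, fun q hq => ?_⟩
  have hq8 : 8 ≤ q := (le_max_right _ _).trans hq
  have hqq : q1 ≤ q := (le_max_left _ _).trans hq
  have hq' : 1 ≤ q := by omega
  have hq0 : (0 : ℝ) < q := by exact_mod_cast hq'
  set d := ang q with hd
  have hdp : 0 < d := ang_pos hq'
  have hd8 : d ≤ 1 / 8 := (ang_le_inv hq').trans (by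
    have : (8 : ℝ) ≤ q := by exact_mod_cast hq8
    exact one_div_le_one_div_of_le (by norm_num) this)
  have hdd0 : d < d0 := by
    refine lt_of_le_of_lt (ang_le_inv hq') ?_
    rw [div_lt_iff₀ hq0, mul_comm, ← div_lt_iff₀ hd0]
    exact hq1.trans_le (by exact_mod_cast hqq)
  have hJ' := hJ d hdp hdd0
  -- the limit energy
  set v := V / Y with hv
  set Et := ∫ z, Ln v d true z ^ 2 + Ln v d false z ^ 2 with hEt
  have hEt0 : 0 ≤ Et := integral_nonneg fun z => by positivity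
  have hE1 : Y / 2 * Et + 1 ≤ Sq Y V q - 2 * V ^ 2 / (Real.pi * Y) * Real.log q +
      (V ^ 2 / (2 * Y * Real.pi) + V ^ 2 / (2 * Y) * C1 + 1) := by
    rw [hEt, Ln_int hdp hd8]
    have hI0 := Ig_nonneg d
    have hI1 := Ig_le_one d
    have e1 : Sq Y V q = V ^ 2 / (2 * Y * d) * Ig d := rfl
    rw [e1, hv]
    have hlog := log_le_log_ang hq'
    rw [← hd] at hlog
    have h2pd : Real.pi ≤ 2 * Real.pi - d := by linarith
    have k1 : V ^ 2 / (2 * Y * (2 * Real.pi - d)) * Ig d ≤ V ^ 2 / (2 * Y * Real.pi) := by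
      calc V ^ 2 / (2 * Y * (2 * Real.pi - d)) * Ig d
          ≤ V ^ 2 / (2 * Y * Real.pi) * 1 := by
            refine mul_le_mul ?_ hI1 hI0 (by positivity)
            refine div_le_div_of_nonneg_left (by positivity) (by positivity) ?_
            exact mul_le_mul_of_nonneg_left h2pd (by positivity)
        _ = _ := mul_one _
    have k2 : V ^ 2 / (2 * Y) * (∫ w in strp, H1 1 d w) ≤
        V ^ 2 / (2 * Y) * (-(4 / Real.pi) * Real.log q + C1) := by
      refine mul_le_mul_of_nonneg_left (hJ'.trans ?_) (by positivity)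
      have : 4 / Real.pi * Real.log q ≤ 4 / Real.pi * Real.log (1 / d) :=
        mul_le_mul_of_nonneg_left hlog (by positivity)
      linarith
    have e2 : Y / 2 * ((V / Y) ^ 2 * (1 / d + 1 / (2 * Real.pi - d)) * Ig d +
        (V / Y) ^ 2 * ∫ w in strp, H1 1 d w) =
        V ^ 2 / (2 * Y * d) * Ig d + V ^ 2 / (2 * Y * (2 * Real.pi - d)) * Ig d +
          V ^ 2 / (2 * Y) * ∫ w in strp, H1 1 d w := by
      have : 2 * Real.pi - d ≠ 0 := by linarith
      field_simp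
    have e3 : V ^ 2 / (2 * Y) * (-(4 / Real.pi) * Real.log q + C1) =
        -(2 * V ^ 2 / (Real.pi * Y) * Real.log q) + V ^ 2 / (2 * Y) * C1 := by
      field_simp
      ring
    rw [e2]
    rw [e3] at k2
    linarith
  -- the constants of `StmtU`
  set ε : ℝ := 1 / (Et + 1) with hε
  have hε0 : 0 < ε := by positivity
  obtain ⟨l, η, Cu, hη, hCu, hmain⟩ := hU b ε hb0 hε0
  have hnf := nf_Bn Y V hq'
  obtain ⟨S, hS⟩ := NF.exists_box hnf
  have ht : Tendsto (fun a : ℕ => (a : ℝ)) atTop atTop := tendsto_natCast_atTop_atTop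
  have hen := hnf.energy ht (S := S) (hS.mono fun i hi e he => by
    by_contra h; exact he (hi e h))
  have hosc := hnf.osc_tendsto ht l S
  have hlim : Tendsto (fun a => (Y + ε) / 2 * ∑ e ∈ S a, Bn Y V q a e ^ 2 +
      Cu * osc l (S a) (Bn Y V q a)) atTop (𝓝 ((Y + ε) / 2 * Et + Cu * 0)) :=
    (hen.const_mul _).add (hosc.const_mul _)
  have hlt : (Y + ε) / 2 * Et + Cu * 0 < Y / 2 * Et + 1 := by
    have h1 : ε * Et ≤ 1 := by
      rw [hε, one_div, inv_mul_le_iff₀ (by linarith)]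
      linarith
    nlinarith
  obtain ⟨M, hM⟩ := hnf.bd
  have hMη : ∀ᶠ a : ℕ in atTop, M / (a : ℝ) ≤ η := by
    have h1 : Tendsto (fun a : ℕ => M / (a : ℝ)) atTop (𝓝 0) := tendsto_const_div_atTop_nhds_zero_nat M
    exact h1.eventually (eventually_le_nhds hη)
  obtain ⟨a0, ha0⟩ := ((hlim.eventually (eventually_lt_nhds hlt)).and
    (hS.and (hM.and hMη))).exists_forall_of_atTop
  refine ⟨a0, fun a ha U hUs => ?_⟩
  obtain ⟨h1, h2, h3, h4⟩ := ha0 a ha
  have h5 := hmain U (S a) 0 (Bn Y V q a) h2 fun e => (h3 e).trans h4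
  rw [H910.ZB_eq_Zρ (isDiv_Bn Y V hq' a hUs)] at h5
  refine h5.trans ?_
  refine mul_le_mul_of_nonneg_right (Real.exp_le_exp.2 ?_) (H910.Z_pos hb0.le U).le
  exact h1.le.trans hE1

end Vale.Agent.P159.T1.H664
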