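import Vale.Agent.P159.T1.H664.ArmDefs
import Vale.Agent.P159.T1.H407.Riemann
import Mathlib.Analysis.SpecialFunctions.Complex.LogDeriv

/-!
The correction of the numerator: the stream function `psW ∘ lw` below the lower lip.
-/

open Filter Topology MeasureTheory Set

namespace Vale.Agent.P159.T1.H664

open Vale.Agent.P159.H353 Vale.Agent.P159.T1.D

/-! ### the profile -/

section gp

variable {d : ℝ}

lemma gp_nonneg (d x : ℝ) : 0 ≤ gp d x :=
  mul_nonneg (Real.smoothTransition.nonneg _) (sub_nonneg.2 (Real.smoothTransition.le_one _))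

lemma gp_le_one (d x : ℝ) : gp d x ≤ 1 := by
  have h1 := Real.smoothTransition.le_one ((x - 4 * d) / (4 * d))
  have h2 := Real.smoothTransition.nonneg (4 * x - 1)
  have h3 := Real.smoothTransition.nonneg ((x - 4 * d) / (4 * d))
  have h4 := Real.smoothTransition.le_one (4 * x - 1)
  unfold gp
  nlinarith

lemma gp_eq_zero_left (hd : 0 < d) {x : ℝ} (hx : x ≤ 4 * d) : gp d x = 0 := by
  unfold gp
  rw [Real.smoothTransition.zero_of_nonpos, zero_mul]
  exact div_nonpos_of_nonpos_of_nonneg (by linarith) (by linarith)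

lemma gp_eq_zero_right {x : ℝ} (hx : 1 / 2 ≤ x) : gp d x = 0 := by
  unfold gp
  rw [Real.smoothTransition.one_of_one_le (x := 4 * x - 1) (by linarith), sub_self, mul_zero]

lemma continuous_gp (d : ℝ) : Continuous (gp d) := by
  unfold gp
  refine (Real.smoothTransition.continuous.comp (by fun_prop)).mul
    (continuous_const.sub (Real.smoothTransition.continuous.comp (by fun_prop)))

lemma continuous_gp_div (hd : 0 < d) : Continuous fun t => gp d t / t := by
  rw [continuous_iff_continuousAt]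
  intro t
  by_cases ht : t = 0
  · subst ht
    have : (fun t => gp d t / t) =ᶠ[𝓝 0] fun _ => 0 := by
      filter_upwards [Iio_mem_nhds (show (0:ℝ) < 4 * d by linarith)] with t ht
      rw [gp_eq_zero_left hd (le_of_lt ht), zero_div]
    exact (continuousAt_const.congr this.symm)
  · exact ((continuous_gp d).continuousAt).div continuousAt_id ht

lemma gp_div_nonneg {t : ℝ} (ht : 0 ≤ t) : 0 ≤ gp d t / t := div_nonneg (gp_nonneg d t) ht

lemma gp_div_le (hd : 0 < d) (t : ℝ) : gp d t / t ≤ 1 / (4 * d) := by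
  rcases le_or_gt t (4 * d) with h | h
  · rw [gp_eq_zero_left hd h, zero_div]; positivity
  · exact div_le_div₀ zero_le_one (gp_le_one d t) (by linarith) h.le

lemma hasDerivAt_PP (hd : 0 < d) (r : ℝ) : HasDerivAt (PP d) (gp d r / r) r :=
  intervalIntegral.integral_hasDerivAt_right ((continuous_gp_div hd).intervalIntegrable _ _)
    ((continuous_gp_div hd).stronglyMeasurableAtFilter _ _) (continuous_gp_div hd).continuousAt

lemma PP_eq_right (hd : 0 < d) {r : ℝ} (hr : 1 / 2 ≤ r) : PP d r = PP d (1 / 2) := by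
  unfold PP
  rw [← intervalIntegral.integral_add_adjacent_intervals
    ((continuous_gp_div hd).intervalIntegrable 0 (1 / 2))
    ((continuous_gp_div hd).intervalIntegrable (1 / 2) r)]
  rw [add_eq_left]
  rw [intervalIntegral.integral_congr (g := fun _ => 0), intervalIntegral.integral_zero]
  intro t ht
  rw [uIcc_of_le hr] at ht
  simp only
  rw [gp_eq_zero_right ht.1, zero_div]

end gp

/-! ### the logarithmic coordinates -/

lemma lw_eq (z : ℝ × ℝ) :
    lw z = ((Complex.log ⟨z.1, z.2⟩).re, (Complex.log ⟨z.1, z.2⟩).im + Real.pi) := by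
  unfold lw
  rw [Complex.log_re, Complex.log_im, Complex.norm_def, Complex.normSq_mk]
  simp only [sq]

/-- the derivative of the logarithmic coordinates -/
noncomputable def lwD (z : ℝ × ℝ) : ℝ × ℝ →L[ℝ] ℝ × ℝ :=
  ((z.1 / (z.1 ^ 2 + z.2 ^ 2)) • ContinuousLinearMap.fst ℝ ℝ ℝ +
      (z.2 / (z.1 ^ 2 + z.2 ^ 2)) • ContinuousLinearMap.snd ℝ ℝ ℝ).prod
    ((-(z.2 / (z.1 ^ 2 + z.2 ^ 2))) • ContinuousLinearMap.fst ℝ ℝ ℝ +
      (z.1 / (z.1 ^ 2 + z.2 ^ 2)) • ContinuousLinearMap.snd ℝ ℝ ℝ)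

lemma lwD_apply (z v : ℝ × ℝ) :
    lwD z v = (z.1 / (z.1 ^ 2 + z.2 ^ 2) * v.1 + z.2 / (z.1 ^ 2 + z.2 ^ 2) * v.2,
      -(z.2 / (z.1 ^ 2 + z.2 ^ 2)) * v.1 + z.1 / (z.1 ^ 2 + z.2 ^ 2) * v.2) := rfl

lemma hasFDerivAt_lw {z : ℝ × ℝ} (hz : (⟨z.1, z.2⟩ : ℂ) ∈ Complex.slitPlane) :
    HasFDerivAt lw (lwD z) z := by
  have h1 : HasFDerivAt (fun z : ℝ × ℝ => (⟨z.1, z.2⟩ : ℂ))
      (Complex.equivRealProdCLM.symm : ℝ × ℝ →L[ℝ] ℂ) z := by
    have h := (Complex.equivRealProdCLM.symm : ℝ × ℝ →L[ℝ] ℂ).hasFDerivAt (x := z)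
    refine h.congr_of_eventuallyEq (Eventually.of_forall fun z => ?_)
    apply Complex.ext <;> simp [Complex.equivRealProdCLM_symm_apply]
  have h2 : HasFDerivAt Complex.log ((⟨z.1, z.2⟩ : ℂ)⁻¹ • (1 : ℂ →L[ℝ] ℂ)) ⟨z.1, z.2⟩ :=
    (Complex.hasDerivAt_log hz).complexToReal_fderiv
  have h3 := h2.comp z h1
  have h4 := (Complex.equivRealProdCLM : ℂ →L[ℝ] ℝ × ℝ).hasFDerivAt.comp z h3
  have h5 := h4.add_const ((0 : ℝ), Real.pi)
  have e1 : lw = fun z : ℝ × ℝ => (Complex.equivRealProdCLM : ℂ →L[ℝ] ℝ × ℝ)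
      (Complex.log (⟨z.1, z.2⟩ : ℂ)) + ((0 : ℝ), Real.pi) := by
    funext z
    rw [lw_eq]
    ext <;> simp
  rw [e1]
  refine h5.congr_fderiv ?_
  have hs : z.1 * z.1 + z.2 * z.2 = z.1 ^ 2 + z.2 ^ 2 := by ring
  refine ContinuousLinearMap.ext fun v => ?_
  rw [lwD_apply]
  have e2 : (Complex.equivRealProdCLM.symm : ℝ × ℝ →L[ℝ] ℂ) v = ⟨v.1, v.2⟩ := by
    apply Complex.ext <;> simp [Complex.equivRealProdCLM_symm_apply]
  have e3 : ∀ w : ℂ, (Complex.equivRealProdCLM : ℂ →L[ℝ] ℝ × ℝ) w = (w.re, w.im) := fun w => rfl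
  rw [ContinuousLinearMap.comp_apply, ContinuousLinearMap.comp_apply, e2, e3,
    ContinuousLinearMap.smul_apply, smul_eq_mul, ContinuousLinearMap.one_apply, Complex.mul_re,
    Complex.mul_im, Complex.inv_re, Complex.inv_im, Complex.normSq_mk, hs]
  ext
  · simp only
    ring
  · simp only
    ring

lemma slit_of_neg {z : ℝ × ℝ} (hz : z.2 ≠ 0) : (⟨z.1, z.2⟩ : ℂ) ∈ Complex.slitPlane := by
  rw [Complex.mem_slitPlane_iff]
  exact Or.inr hz

end Vale.Agent.P159.T1.H664
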